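import Mathlib

/-!
Shared definitions for S0423 (row 280).

If `F` is the distribution function of a real random variable `T`, then `R a F` is the
distribution function of `T - a * X` with `X` an independent mean-one exponential variable.
`chain l` is the distribution function of `-(a₁ X₁ + ⋯ + aₙ Xₙ)` for `l = [a₁, …, aₙ]`.
-/

namespace Crest.Agent.Helper19

open MeasureTheory Set

/-- Heaviside step: the distribution function of the constant `0`. -/
noncomputable def Hv (t : ℝ) : ℝ := if 0 ≤ t then 1 else 0

/-- One-step operator. -/
noncomputable def R (a : ℝ) (F : ℝ → ℝ) (t : ℝ) : ℝ :=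
  ∫ x in Ioi (0 : ℝ), F (t + a * x) * Real.exp (-x)

/-- `chain l` is the distribution function of `-(∑ aᵢ Xᵢ)`. -/
noncomputable def chain : List ℝ → ℝ → ℝ
  | [] => Hv
  | a :: l => R a (chain l)

/-- The properties of a centred log-concave distribution function used by the comparison
argument. -/
structure GoodCDF (F : ℝ → ℝ) : Prop where
  mono : Monotone F
  cont : Continuous F
  pos : ∀ t, 0 < F t
  lt_one : ∀ t, F t < 1
  logconc : ∀ t u h : ℝ, t ≤ u → 0 ≤ h → F t * F (u + h) ≤ F (t + h) * F u
  integrable : Integrable (fun t => F t - Hv t)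
  mean_zero : ∫ t, (F t - Hv t) = 0

end Crest.Agent.Helper19
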