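import Crest.Agent.Helper19.S0423Chain
import Crest.Prelude.Def_TruncExpWeight

/-!
Assembly lemmas for S0423: the all-zero case, the sign split and the final algebra of the
upper-bound half, stated with the two remaining module interfaces as hypotheses.
-/

namespace Crest.Agent.Helper19

open MeasureTheory Set Real

/-- `exp (1/3) ≥ 25/18`. -/
theorem exp_third_ge : (25 : ℝ) / 18 ≤ exp (1 / 3) := by
  have h := Real.quadratic_le_exp_of_nonneg (x := 1 / 3) (by norm_num)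
  norm_num at h ⊢
  linarith

/-- The all-zero case: the functional of the Heaviside function. -/
theorem J_Hv_eq :
    ∫ s in Ioi (0 : ℝ), Hv (4 / 3 - s) * (s * exp (-s)) = 1 - 7 / 3 * exp (-(4 / 3)) := by
  have h1 : ∫ s in Ioi (0 : ℝ), Hv (4 / 3 - s) * (s * exp (-s))
      = ∫ s in Ioc (0 : ℝ) (4 / 3), s * exp (-s) := by
    have e : ∀ s : ℝ, Hv (4 / 3 - s) * (s * exp (-s))
        = (Iic (4 / 3 : ℝ)).indicator (fun s => s * exp (-s)) s := by
      intro s
      unfold Hv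
      by_cases hs : s ≤ 4 / 3
      · have : (0 : ℝ) ≤ 4 / 3 - s := by linarith
        simp [this, hs]
      · have : ¬ ((0 : ℝ) ≤ 4 / 3 - s) := by linarith
        simp [this, hs]
    simp only [e]
    rw [setIntegral_indicator measurableSet_Iic]
    congr 1
  rw [h1, ← intervalIntegral.integral_of_le (by norm_num : (0 : ℝ) ≤ 4 / 3)]
  have hd : ∀ x ∈ uIcc (0 : ℝ) (4 / 3),
      HasDerivAt (fun s : ℝ => -(1 + s) * exp (-s)) (x * exp (-x)) x := by
    intro x _
    have h1 : HasDerivAt (fun s : ℝ => -(1 + s)) (-1) x :=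
      ((hasDerivAt_id x).const_add 1).neg
    have h2 : HasDerivAt (fun s : ℝ => exp (-s)) (exp (-x) * -1) x :=
      ((hasDerivAt_id x).neg).exp
    exact (h1.mul h2).congr_deriv (by ring)
  have hi : IntervalIntegrable (fun s : ℝ => s * exp (-s)) volume 0 (4 / 3) :=
    (by fun_prop : Continuous fun s : ℝ => s * exp (-s)).intervalIntegrable _ _
  rw [intervalIntegral.integral_eq_sub_of_hasDerivAt hd hi]
  simp only [add_zero, neg_zero, exp_zero]
  ring

theorem J_Hv : 4 / 9 * exp (-(1 / 3)) ≤ ∫ s in Ioi (0 : ℝ), Hv (4 / 3 - s) * (s * exp (-s)) := by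
  rw [J_Hv_eq]
  have hy := exp_third_ge
  set y : ℝ := exp (1 / 3) with hy'
  have hypos : 0 < y := exp_pos _
  have e1 : exp (-(1 / 3 : ℝ)) = y⁻¹ := by rw [hy', ← exp_neg]
  have e2 : exp (-(4 / 3 : ℝ)) = (y⁻¹) ^ 4 := by
    rw [hy', ← exp_neg, ← exp_nat_mul]; norm_num
  rw [e1, e2]
  have hz : y⁻¹ ≤ 18 / 25 := by
    rw [inv_le_comm₀ hypos (by norm_num)]
    norm_num
    linarith
  have hz0 : 0 < y⁻¹ := inv_pos.mpr hypos
  set z : ℝ := y⁻¹ with hz'
  have h2 : z ^ 2 ≤ (18 / 25) ^ 2 := by nlinarith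
  have h4 : z ^ 4 ≤ (18 / 25) ^ 4 := by nlinarith [sq_nonneg z, sq_nonneg (z ^ 2)]
  norm_num at h4 ⊢
  linarith

/-- Sign split for coefficient vectors with zero sum. -/
theorem sign_split {N : ℕ} (a : Fin N → ℝ) (hsum : ∑ i, a i = 0) :
    (∀ i, a i = 0) ∨ ((∃ i, 0 < a i) ∧ ∃ i, a i < 0) := by
  by_cases h0 : ∀ i, a i = 0
  · exact Or.inl h0
  · right
    simp only [not_forall] at h0
    obtain ⟨i, hi⟩ := h0
    constructor
    · by_contra hc
      simp only [not_exists, not_lt] at hc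
      exact hi ((Finset.sum_eq_zero_iff_of_nonpos (fun j _ => hc j)).1 hsum i (Finset.mem_univ i))
    · by_contra hc
      simp only [not_exists, not_lt] at hc
      exact hi ((Finset.sum_eq_zero_iff_of_nonneg (fun j _ => hc j)).1 hsum i (Finset.mem_univ i))

/-- The distribution function attached to a zero-sum coefficient vector satisfies the lower
bound, given the abstract comparison lemma `M3`. -/
theorem J_ofFn_ge
    (M3 : ∀ F : ℝ → ℝ, GoodCDF F →
      4 / 9 * exp (-(1 / 3)) ≤ ∫ s in Ioi (0 : ℝ), F (4 / 3 - s) * (s * exp (-s)))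
    {N : ℕ} (a : Fin N → ℝ) (hsum : ∑ i, a i = 0) :
    4 / 9 * exp (-(1 / 3))
      ≤ ∫ s in Ioi (0 : ℝ), chain (List.ofFn a) (4 / 3 - s) * (s * exp (-s)) := by
  rcases sign_split a hsum with h0 | ⟨⟨i, hi⟩, ⟨j, hj⟩⟩
  · have e : a = fun _ => 0 := funext h0
    rw [e, List.ofFn_const, chain_replicate_zero]
    exact J_Hv
  · apply M3
    apply chain_good
    · rw [List.sum_ofFn]; exact hsum
    · exact ⟨a i, (List.mem_ofFn' a (a i)).2 ⟨i, rfl⟩, hi⟩
    · exact ⟨a j, (List.mem_ofFn' a (a j)).2 ⟨j, rfl⟩, hj⟩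

/-- Final algebra of the upper-bound half. -/
theorem upper_algebra (I J : ℝ) (hI : I = 1 - J) (hJ : 4 / 9 * exp (-(1 / 3)) ≤ J) :
    exp (4 / 3) / (4 / 3) * I ≤ 3 / 4 * exp (4 / 3) - exp 1 / 3 := by
  have e : exp (4 / 3) * exp (-(1 / 3)) = exp 1 := by
    rw [← exp_add]; norm_num
  have hpos : 0 < exp (4 / 3 : ℝ) := exp_pos _
  rw [hI]
  have h1 : exp (4 / 3) * (4 / 9 * exp (-(1 / 3))) ≤ exp (4 / 3) * J :=
    mul_le_mul_of_nonneg_left hJ hpos.le
  have h2 : exp (4 / 3) * (4 / 9 * exp (-(1 / 3))) = 4 / 9 * exp 1 := by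
    rw [← e]; ring
  have h3 : exp (4 / 3) / (4 / 3) * (1 - J) = 3 / 4 * exp (4 / 3) - 3 / 4 * (exp (4 / 3) * J) := by
    ring
  rw [h3]
  linarith

/-- The upper-bound half of S0423 from the two module interfaces `M1` and `M3`. -/
theorem upper_half_of
    (M1 : ∀ (N : ℕ) (a : Fin N → ℝ),
      (∫ x in Set.pi Set.univ (fun _ : Fin N => Set.Ioi (0 : ℝ)),
          Crest.AlgGeometry.truncExpWeight (4 / 3 + ∑ i, a i * x i) * Real.exp (-∑ i, x i))
        = 1 - ∫ s in Ioi (0 : ℝ), chain (List.ofFn a) (4 / 3 - s) * (s * Real.exp (-s)))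
    (M3 : ∀ F : ℝ → ℝ, GoodCDF F →
      4 / 9 * exp (-(1 / 3)) ≤ ∫ s in Ioi (0 : ℝ), F (4 / 3 - s) * (s * exp (-s))) :
    ∀ (N : ℕ) (a : Fin N → ℝ), 1 ≤ N → ∑ i, a i = 0 →
      Real.exp (4 / 3) / (4 / 3) *
          ∫ x in Set.pi Set.univ (fun _ : Fin N => Set.Ioi (0 : ℝ)),
            Crest.AlgGeometry.truncExpWeight (4 / 3 + ∑ i, a i * x i) * Real.exp (-∑ i, x i)
        ≤ 3 / 4 * Real.exp (4 / 3) - Real.exp 1 / 3 := by
  intro N a _ hsum
  exact upper_algebra _ _ (M1 N a) (J_ofFn_ge M3 a hsum)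

end Crest.Agent.Helper19
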