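import Crest.Agent.Helper19.S0423Defs

/-!
Invariants of the distribution functions `chain l` (module M2 of the S0423 development).
-/

namespace Crest.Agent.Helper19

open MeasureTheory Set Real

/-- Bounded measurable functions with values in `[0, 1]`. -/
structure BM (F : ℝ → ℝ) : Prop where
  meas : Measurable F
  nonneg : ∀ t, 0 ≤ F t
  le_one : ∀ t, F t ≤ 1

/-- Four-point form of log-concavity. -/
def FourPt (F : ℝ → ℝ) : Prop :=
  ∀ t u h : ℝ, t ≤ u → 0 ≤ h → F t * F (u + h) ≤ F (t + h) * F u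

theorem BM.integrableOn {F : ℝ → ℝ} (hF : BM F) (t a : ℝ) :
    IntegrableOn (fun x => F (t + a * x) * exp (-x)) (Ioi 0) := by
  have h1 : IntegrableOn (fun x : ℝ => exp (-x)) (Ioi 0) := integrableOn_exp_neg_Ioi 0
  refine Integrable.mono' h1 ?_ ?_
  · exact ((hF.meas.comp (by fun_prop)).mul (by fun_prop)).aestronglyMeasurable
  · refine Filter.Eventually.of_forall fun x => ?_
    rw [norm_mul, Real.norm_eq_abs, Real.norm_eq_abs, abs_of_nonneg (hF.nonneg _),
      abs_of_pos (exp_pos _)]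
    exact mul_le_of_le_one_left (exp_pos _).le (hF.le_one _)

theorem BM.R_nonneg {F : ℝ → ℝ} (hF : BM F) (a t : ℝ) : 0 ≤ R a F t :=
  setIntegral_nonneg measurableSet_Ioi (fun _ _ => mul_nonneg (hF.nonneg _) (exp_pos _).le)

theorem BM.R_le_one {F : ℝ → ℝ} (hF : BM F) (a t : ℝ) : R a F t ≤ 1 := by
  have h := setIntegral_mono (hF.integrableOn t a) (integrableOn_exp_neg_Ioi 0)
    (fun x => mul_le_of_le_one_left (exp_pos _).le (hF.le_one _))
  rwa [integral_exp_neg_Ioi_zero] at h

theorem BM.R_mono {F : ℝ → ℝ} (hF : BM F) (hm : Monotone F) (a : ℝ) : Monotone (R a F) :=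
  fun t u htu => setIntegral_mono (hF.integrableOn t a) (hF.integrableOn u a)
    (fun x => mul_le_mul_of_nonneg_right (hm (by linarith)) (exp_pos _).le)

theorem BM.R_bm {F : ℝ → ℝ} (hF : BM F) (hm : Monotone F) (a : ℝ) : BM (R a F) :=
  ⟨(hF.R_mono hm a).measurable, hF.R_nonneg a, hF.R_le_one a⟩

theorem R_zero {F : ℝ → ℝ} : R 0 F = F := by
  funext t
  simp only [R, zero_mul, add_zero]
  rw [integral_const_mul, integral_exp_neg_Ioi_zero, mul_one]

theorem Hv_bm : BM Hv := by
  refine ⟨?_, ?_, ?_⟩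
  · exact Measurable.ite measurableSet_Ici measurable_const measurable_const
  · intro t; unfold Hv; split_ifs <;> norm_num
  · intro t; unfold Hv; split_ifs <;> norm_num

theorem Hv_mono : Monotone Hv := by
  intro t u htu
  unfold Hv
  split_ifs with h1 h2 h2
  · exact le_rfl
  · exact absurd (h1.trans htu) h2
  · norm_num
  · exact le_rfl

theorem Hv_fourPt : FourPt Hv := by
  intro t u h htu hh
  unfold Hv
  split_ifs <;> first | (exfalso; linarith) | norm_num


/-! ### Tail integrals preserve four-point log-concavity -/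

theorem integral_Ioi_shift (φ : ℝ → ℝ) (t h : ℝ) :
    ∫ x in Ioi (t + h), φ x = ∫ x in Ioi t, φ (x + h) := by
  have h1 := (measurePreserving_add_right volume h).setIntegral_preimage_emb
    (measurableEmbedding_addRight h) φ (Ioi (t + h))
  have h2 : (fun x : ℝ => x + h) ⁻¹' Ioi (t + h) = Ioi t := by
    ext x; simp
  rw [h2] at h1
  exact h1.symm

theorem integrableOn_Ioi_shift {φ : ℝ → ℝ} {t h : ℝ} (hφ : IntegrableOn φ (Ioi (t + h))) :
    IntegrableOn (fun x => φ (x + h)) (Ioi t) := by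
  have h1 := ((measurePreserving_add_right volume h).integrableOn_comp_preimage
    (measurableEmbedding_addRight h) (f := φ) (s := Ioi (t + h))).2 hφ
  have h2 : (fun x : ℝ => x + h) ⁻¹' Ioi (t + h) = Ioi t := by
    ext x; simp
  rw [h2] at h1
  exact h1

theorem integral_Ioc_shift (φ : ℝ → ℝ) (t u h : ℝ) :
    ∫ x in Ioc (t + h) (u + h), φ x = ∫ x in Ioc t u, φ (x + h) := by
  have h1 := (measurePreserving_add_right volume h).setIntegral_preimage_emb
    (measurableEmbedding_addRight h) φ (Ioc (t + h) (u + h))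
  have h2 : (fun x : ℝ => x + h) ⁻¹' Ioc (t + h) (u + h) = Ioc t u := by
    ext x; simp
  rw [h2] at h1
  exact h1.symm

theorem fourPt_tail {φ : ℝ → ℝ} (hint : ∀ t, IntegrableOn φ (Ioi t))
    (h4 : FourPt φ) : FourPt (fun t => ∫ x in Ioi t, φ x) := by
  intro t u h htu hh
  have hsplit : ∀ t u : ℝ, t ≤ u →
      ∫ x in Ioi t, φ x = (∫ x in Ioc t u, φ x) + ∫ x in Ioi u, φ x := by
    intro t u htu
    rw [← Ioc_union_Ioi_eq_Ioi htu, setIntegral_union (Ioc_disjoint_Ioi le_rfl) measurableSet_Ioi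
      ((hint t).mono_set Ioc_subset_Ioi_self) (hint u)]
  have hint' : ∀ t, IntegrableOn (fun x => φ (x + h)) (Ioi t) :=
    fun t => integrableOn_Ioi_shift (hint (t + h))
  -- key pointwise inequality
  have key : ∀ x, x ≤ u →
      φ x * (∫ w in Ioi (u + h), φ w) ≤ φ (x + h) * ∫ w in Ioi u, φ w := by
    intro x hx
    rw [integral_Ioi_shift φ u h, ← integral_const_mul, ← integral_const_mul]
    refine setIntegral_mono_on ((hint' u).const_mul _) ((hint u).const_mul _) measurableSet_Ioi ?_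
    intro w hw
    exact h4 x w h (hx.trans (le_of_lt hw)) hh
  show (∫ x in Ioi t, φ x) * (∫ x in Ioi (u + h), φ x)
      ≤ (∫ x in Ioi (t + h), φ x) * ∫ x in Ioi u, φ x
  rw [hsplit t u htu, hsplit (t + h) (u + h) (by linarith), integral_Ioc_shift φ t u h]
  have hA : (∫ x in Ioc t u, φ x) * (∫ x in Ioi (u + h), φ x)
      ≤ (∫ x in Ioc t u, φ (x + h)) * ∫ x in Ioi u, φ x := by
    rw [← integral_mul_const, ← integral_mul_const]
    refine setIntegral_mono_on (((hint t).mono_set Ioc_subset_Ioi_self).mul_const _)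
      (((hint' t).mono_set Ioc_subset_Ioi_self).mul_const _) measurableSet_Ioc ?_
    intro x hx
    exact key x hx.2
  nlinarith [hA]


/-! ### The operator `R a` for `a > 0` as a weighted tail integral -/

theorem R_eq_tail {F : ℝ → ℝ} {a : ℝ} (ha : 0 < a) (t : ℝ) :
    R a F t = a⁻¹ * exp (a⁻¹ * t) * ∫ u in Ioi t, F u * exp (-a⁻¹ * u) := by
  unfold R
  have h1 := integral_comp_mul_left_Ioi (fun v => F (t + v) * exp (-a⁻¹ * v)) 0 ha
  have h2 : ∀ x : ℝ, -a⁻¹ * (a * x) = -x := fun x => by field_simp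
  simp only [h2, mul_zero, smul_eq_mul] at h1
  rw [h1]
  have h3 := integral_Ioi_shift (fun u => F u * exp (-a⁻¹ * (u - t))) 0 t
  simp only [zero_add, add_sub_cancel_right] at h3
  have h4 : (∫ x in Ioi (0 : ℝ), F (t + x) * exp (-a⁻¹ * x))
      = ∫ x in Ioi (0 : ℝ), F (x + t) * exp (-a⁻¹ * x) := by
    simp only [add_comm]
  rw [h4, ← h3]
  have h5 : ∀ u : ℝ, F u * exp (-a⁻¹ * (u - t)) = exp (a⁻¹ * t) * (F u * exp (-a⁻¹ * u)) := by
    intro u
    have : exp (-a⁻¹ * (u - t)) = exp (a⁻¹ * t) * exp (-a⁻¹ * u) := by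
      rw [← exp_add]; ring_nf
    rw [this]; ring
  simp only [h5]
  rw [integral_const_mul]
  ring

theorem BM.integrableOn_tail {F : ℝ → ℝ} (hF : BM F) {a : ℝ} (ha : 0 < a) (t : ℝ) :
    IntegrableOn (fun u => F u * exp (-a⁻¹ * u)) (Ioi t) := by
  have h1 : IntegrableOn (fun x : ℝ => exp (-a⁻¹ * x)) (Ioi t) :=
    exp_neg_integrableOn_Ioi t (inv_pos.mpr ha)
  refine Integrable.mono' h1 ?_ ?_
  · exact (hF.meas.mul (by fun_prop)).aestronglyMeasurable
  · refine Filter.Eventually.of_forall fun x => ?_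
    rw [norm_mul, Real.norm_eq_abs, Real.norm_eq_abs, abs_of_nonneg (hF.nonneg _),
      abs_of_pos (exp_pos _)]
    exact mul_le_of_le_one_left (exp_pos _).le (hF.le_one _)

theorem fourPt_R_pos {F : ℝ → ℝ} (hF : BM F) (h4 : FourPt F) {a : ℝ} (ha : 0 < a) :
    FourPt (R a F) := by
  have h4φ : FourPt (fun u => F u * exp (-a⁻¹ * u)) := by
    intro t u h htu hh
    have hk := h4 t u h htu hh
    have e : exp (-a⁻¹ * t) * exp (-a⁻¹ * (u + h)) = exp (-a⁻¹ * (t + h)) * exp (-a⁻¹ * u) := by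
      rw [← exp_add, ← exp_add]; ring_nf
    calc F t * exp (-a⁻¹ * t) * (F (u + h) * exp (-a⁻¹ * (u + h)))
        = (F t * F (u + h)) * (exp (-a⁻¹ * t) * exp (-a⁻¹ * (u + h))) := by ring
      _ ≤ (F (t + h) * F u) * (exp (-a⁻¹ * t) * exp (-a⁻¹ * (u + h))) := by
          apply mul_le_mul_of_nonneg_right hk
          positivity
      _ = F (t + h) * exp (-a⁻¹ * (t + h)) * (F u * exp (-a⁻¹ * u)) := by rw [e]; ring
  have hT := fourPt_tail (fun t => hF.integrableOn_tail ha t) h4φ
  intro t u h htu hh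
  rw [R_eq_tail ha, R_eq_tail ha, R_eq_tail ha, R_eq_tail ha]
  have hk := hT t u h htu hh
  simp only at hk
  have e : exp (a⁻¹ * t) * exp (a⁻¹ * (u + h)) = exp (a⁻¹ * (t + h)) * exp (a⁻¹ * u) := by
    rw [← exp_add, ← exp_add]; ring_nf
  have hpos : 0 ≤ a⁻¹ * a⁻¹ * (exp (a⁻¹ * t) * exp (a⁻¹ * (u + h))) := by positivity
  calc a⁻¹ * exp (a⁻¹ * t) * (∫ x in Ioi t, F x * exp (-a⁻¹ * x)) *
        (a⁻¹ * exp (a⁻¹ * (u + h)) * ∫ x in Ioi (u + h), F x * exp (-a⁻¹ * x))
      = a⁻¹ * a⁻¹ * (exp (a⁻¹ * t) * exp (a⁻¹ * (u + h))) *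
          ((∫ x in Ioi t, F x * exp (-a⁻¹ * x)) * ∫ x in Ioi (u + h), F x * exp (-a⁻¹ * x)) := by
        ring
    _ ≤ a⁻¹ * a⁻¹ * (exp (a⁻¹ * t) * exp (a⁻¹ * (u + h))) *
          ((∫ x in Ioi (t + h), F x * exp (-a⁻¹ * x)) * ∫ x in Ioi u, F x * exp (-a⁻¹ * x)) :=
        mul_le_mul_of_nonneg_left hk hpos
    _ = _ := by rw [e]; ring

theorem FourPt.comp_neg {F : ℝ → ℝ} (h4 : FourPt F) : FourPt (fun t => F (-t)) := by
  intro t u h htu hh
  have hk := h4 (-(u + h)) (-(t + h)) h (by linarith) hh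
  have e1 : -(t + h) + h = -t := by ring
  have e2 : -(u + h) + h = -u := by ring
  rw [e1, e2] at hk
  linarith [mul_comm (F (-(u + h))) (F (-t)), mul_comm (F (-u)) (F (-(t + h)))]

theorem R_neg_eq {F : ℝ → ℝ} (a t : ℝ) : R a F t = R (-a) (fun s => F (-s)) (-t) := by
  unfold R
  congr 1
  funext x
  congr 2
  ring

theorem BM.comp_neg {F : ℝ → ℝ} (hF : BM F) : BM (fun s => F (-s)) :=
  ⟨hF.meas.comp measurable_neg, fun _ => hF.nonneg _, fun _ => hF.le_one _⟩

theorem fourPt_R {F : ℝ → ℝ} (hF : BM F) (h4 : FourPt F) (a : ℝ) : FourPt (R a F) := by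
  rcases lt_trichotomy a 0 with ha | ha | ha
  · have h := (fourPt_R_pos hF.comp_neg h4.comp_neg (neg_pos.mpr ha)).comp_neg
    have e : R a F = fun t => R (-a) (fun s => F (-s)) (-t) := funext (R_neg_eq a)
    rw [e]
    exact h
  · rw [ha, R_zero]; exact h4
  · exact fourPt_R_pos hF h4 ha

/-! ### Continuity -/

theorem continuous_R_pos {F : ℝ → ℝ} (hF : BM F) {a : ℝ} (ha : 0 < a) : Continuous (R a F) := by
  have e : R a F = fun t => a⁻¹ * exp (a⁻¹ * t) *
      ((∫ u in Ioi (0 : ℝ), F u * exp (-a⁻¹ * u)) - ∫ u in (0 : ℝ)..t, F u * exp (-a⁻¹ * u)) := by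
    funext t
    rw [R_eq_tail ha, ← intervalIntegral.integral_Ioi_sub_Ioi' (hF.integrableOn_tail ha 0)
      (hF.integrableOn_tail ha t)]
    ring
  rw [e]
  have hii : ∀ p q : ℝ, IntervalIntegrable (fun u => F u * exp (-a⁻¹ * u)) volume p q := by
    intro p q
    apply IntegrableOn.intervalIntegrable
    refine (hF.integrableOn_tail ha (min p q - 1)).mono_set ?_
    intro x hx
    rw [mem_uIcc] at hx
    rw [mem_Ioi]
    rcases hx with hx | hx
    · linarith [min_le_left p q]
    · linarith [min_le_right p q]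
  have hc := intervalIntegral.continuous_primitive hii 0
  fun_prop

theorem continuous_R {F : ℝ → ℝ} (hF : BM F) {a : ℝ} (ha : a ≠ 0) : Continuous (R a F) := by
  rcases lt_or_gt_of_ne ha with ha | ha
  · have h := continuous_R_pos hF.comp_neg (neg_pos.mpr ha)
    have e : R a F = fun t => R (-a) (fun s => F (-s)) (-t) := funext (R_neg_eq a)
    rw [e]
    exact h.comp continuous_neg
  · exact continuous_R_pos hF ha


/-! ### The mean: `∫ (R a F - Hv) = ∫ (F - Hv) + a` -/

theorem integrableOn_mul_exp_neg : IntegrableOn (fun x : ℝ => x * exp (-x)) (Ioi 0) := by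
  have h := Real.GammaIntegral_convergent (s := 2) (by norm_num)
  refine h.congr_fun ?_ measurableSet_Ioi
  intro x _
  simp only
  rw [show (2 : ℝ) - 1 = 1 by norm_num, Real.rpow_one, mul_comm]

theorem integral_mul_exp_neg : ∫ x in Ioi (0 : ℝ), x * exp (-x) = 1 := by
  have h := Real.Gamma_eq_integral (s := 2) (by norm_num)
  rw [Real.Gamma_two] at h
  rw [h]
  refine setIntegral_congr_fun measurableSet_Ioi ?_
  intro x _
  simp only
  rw [show (2 : ℝ) - 1 = 1 by norm_num, Real.rpow_one, mul_comm]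

theorem Hv_shift_sub (c t : ℝ) :
    Hv (t + c) - Hv t
      = (Ico (-c) 0).indicator (fun _ => (1 : ℝ)) t
        - (Ico 0 (-c)).indicator (fun _ => (1 : ℝ)) t := by
  unfold Hv
  by_cases h1 : 0 ≤ t + c <;> by_cases h2 : 0 ≤ t
  · have a1 : t ∉ Ico (-c) 0 := fun h => absurd h.2 (not_lt.mpr h2)
    have a2 : t ∉ Ico 0 (-c) := fun h => by linarith [h.2]
    simp [h1, h2, a1, a2]
  · have a1 : t ∈ Ico (-c) 0 := ⟨by linarith, not_le.mp h2⟩
    have a2 : t ∉ Ico 0 (-c) := fun h => h2 h.1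
    simp [h1, h2, a1, a2]
  · have a1 : t ∉ Ico (-c) 0 := fun h => absurd h.2 (not_lt.mpr h2)
    have a2 : t ∈ Ico 0 (-c) := ⟨h2, by linarith [not_le.mp h1]⟩
    simp [h1, h2, a1, a2]
  · have a1 : t ∉ Ico (-c) 0 := fun h => h1 (by linarith [h.1])
    have a2 : t ∉ Ico 0 (-c) := fun h => h2 h.1
    simp [h1, h2, a1, a2]

theorem integrable_indicator_Ico_one (p q : ℝ) :
    Integrable ((Ico p q).indicator (fun _ => (1 : ℝ))) :=
  (integrable_indicator_iff measurableSet_Ico).2 (integrableOn_const measure_Ico_lt_top.ne)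

theorem integrable_Hv_shift_sub (c : ℝ) : Integrable (fun t => Hv (t + c) - Hv t) := by
  have e : (fun t => Hv (t + c) - Hv t) = fun t => (Ico (-c) 0).indicator (fun _ => (1 : ℝ)) t
        - (Ico 0 (-c)).indicator (fun _ => (1 : ℝ)) t := funext (Hv_shift_sub c)
  rw [e]
  exact (integrable_indicator_Ico_one _ _).sub (integrable_indicator_Ico_one _ _)

theorem integral_Hv_shift_sub (c : ℝ) : ∫ t, (Hv (t + c) - Hv t) = c := by
  have e : (fun t => Hv (t + c) - Hv t) = fun t => (Ico (-c) 0).indicator (fun _ => (1 : ℝ)) t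
        - (Ico 0 (-c)).indicator (fun _ => (1 : ℝ)) t := funext (Hv_shift_sub c)
  rw [e, integral_sub (integrable_indicator_Ico_one _ _) (integrable_indicator_Ico_one _ _),
    integral_indicator_const _ measurableSet_Ico, integral_indicator_const _ measurableSet_Ico,
    Real.volume_real_Ico, Real.volume_real_Ico]
  rcases le_total 0 c with h | h
  · rw [max_eq_left (by linarith), max_eq_right (by linarith)]; simp
  · rw [max_eq_right (by linarith), max_eq_left (by linarith)]; simp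

theorem integral_abs_Hv_shift_sub_le (c : ℝ) : ∫ t, |Hv (t + c) - Hv t| ≤ |c| := by
  have hb : ∀ t, |Hv (t + c) - Hv t| ≤ (Ico (-c) 0).indicator (fun _ => (1 : ℝ)) t
        + (Ico 0 (-c)).indicator (fun _ => (1 : ℝ)) t := by
    intro t
    rw [Hv_shift_sub]
    have h1 : 0 ≤ (Ico (-c) 0).indicator (fun _ => (1 : ℝ)) t :=
      indicator_nonneg (fun _ _ => zero_le_one) t
    have h2 : 0 ≤ (Ico 0 (-c)).indicator (fun _ => (1 : ℝ)) t :=
      indicator_nonneg (fun _ _ => zero_le_one) t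
    rw [abs_le]; constructor <;> linarith
  have hi := (integrable_indicator_Ico_one (-c) 0).add (integrable_indicator_Ico_one 0 (-c))
  calc ∫ t, |Hv (t + c) - Hv t|
      ≤ ∫ t, ((Ico (-c) 0).indicator (fun _ => (1 : ℝ)) t
        + (Ico 0 (-c)).indicator (fun _ => (1 : ℝ)) t) :=
        integral_mono (integrable_Hv_shift_sub c).abs hi hb
    _ = |c| := by
        rw [integral_add (integrable_indicator_Ico_one _ _) (integrable_indicator_Ico_one _ _),
          integral_indicator_const _ measurableSet_Ico,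
          integral_indicator_const _ measurableSet_Ico,
          Real.volume_real_Ico, Real.volume_real_Ico]
        rcases le_total 0 c with h | h
        · rw [max_eq_left (by linarith), max_eq_right (by linarith), abs_of_nonneg h]; simp
        · rw [max_eq_right (by linarith), max_eq_left (by linarith), abs_of_nonpos h]; simp

theorem mean_R {F : ℝ → ℝ} (hF : BM F) (hint : Integrable (fun t => F t - Hv t)) (a : ℝ) :
    Integrable (fun t => R a F t - Hv t) ∧
      ∫ t, (R a F t - Hv t) = (∫ t, (F t - Hv t)) + a := by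
  set D : ℝ → ℝ := fun t => F t - Hv t with hD
  set ν : Measure ℝ := volume.restrict (Ioi 0) with hν
  set f : ℝ × ℝ → ℝ := fun p => (F (p.2 + a * p.1) - Hv p.2) * exp (-p.1) with hf
  have hfm : Measurable f :=
    ((hF.meas.comp (by fun_prop)).sub (Hv_bm.meas.comp measurable_snd)).mul (by fun_prop)
  have hfe : ∀ x : ℝ, (fun t => f (x, t))
      = fun t => (D (t + a * x) + (Hv (t + a * x) - Hv t)) * exp (-x) := by
    intro x; funext t; simp only [hf, hD]; ring
  have hsec : ∀ x : ℝ, Integrable (fun t => f (x, t)) volume := by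
    intro x
    rw [hfe x]
    exact ((hint.comp_add_right (a * x)).add (integrable_Hv_shift_sub (a * x))).mul_const _
  have hsec_int : ∀ x : ℝ, ∫ t, f (x, t) = ((∫ t, D t) + a * x) * exp (-x) := by
    intro x
    rw [hfe x, integral_mul_const,
      integral_add (hint.comp_add_right (a * x)) (integrable_Hv_shift_sub (a * x)),
      integral_add_right_eq_self D, integral_Hv_shift_sub]
  have hnorm : ∀ x : ℝ, ∫ t, ‖f (x, t)‖ ≤ ((∫ t, ‖D t‖) + |a * x|) * exp (-x) := by
    intro x
    have hb : ∀ t, ‖f (x, t)‖ ≤ (‖D (t + a * x)‖ + |Hv (t + a * x) - Hv t|) * exp (-x) := by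
      intro t
      have := congrFun (hfe x) t
      rw [this, norm_mul, Real.norm_eq_abs (exp (-x)), abs_of_pos (exp_pos _)]
      exact mul_le_mul_of_nonneg_right (norm_add_le _ _) (exp_pos _).le
    have hi : Integrable (fun t => (‖D (t + a * x)‖ + |Hv (t + a * x) - Hv t|) * exp (-x)) :=
      (((hint.comp_add_right (a * x)).norm).add (integrable_Hv_shift_sub (a * x)).abs).mul_const _
    calc ∫ t, ‖f (x, t)‖
        ≤ ∫ t, (‖D (t + a * x)‖ + |Hv (t + a * x) - Hv t|) * exp (-x) :=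
          integral_mono (hsec x).norm hi hb
      _ = ((∫ t, ‖D t‖) + ∫ t, |Hv (t + a * x) - Hv t|) * exp (-x) := by
          rw [integral_mul_const,
            integral_add ((hint.comp_add_right (a * x)).norm) (integrable_Hv_shift_sub (a * x)).abs,
            integral_add_right_eq_self (fun t => ‖D t‖)]
      _ ≤ ((∫ t, ‖D t‖) + |a * x|) * exp (-x) := by
          apply mul_le_mul_of_nonneg_right _ (exp_pos _).le
          linarith [integral_abs_Hv_shift_sub_le (a * x)]
  have hg : Integrable (fun x => ((∫ t, ‖D t‖) + |a| * x) * exp (-x)) ν := by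
    have h1 : Integrable (fun x : ℝ => (∫ t, ‖D t‖) * exp (-x)) ν :=
      (integrableOn_exp_neg_Ioi 0).const_mul _
    have h2 : Integrable (fun x : ℝ => |a| * (x * exp (-x))) ν :=
      integrableOn_mul_exp_neg.const_mul _
    have e : (fun x => ((∫ t, ‖D t‖) + |a| * x) * exp (-x))
        = fun x => (∫ t, ‖D t‖) * exp (-x) + |a| * (x * exp (-x)) := by
      funext x; ring
    rw [e]
    exact h1.add h2
  have hprod : Integrable f (ν.prod volume) := by
    rw [integrable_prod_iff hfm.aestronglyMeasurable]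
    refine ⟨Filter.Eventually.of_forall hsec, ?_⟩
    refine Integrable.mono' hg (hfm.aestronglyMeasurable.norm.integral_prod_right') ?_
    rw [hν]
    filter_upwards [ae_restrict_mem measurableSet_Ioi] with x hx
    rw [Real.norm_eq_abs, abs_of_nonneg (integral_nonneg (fun t => norm_nonneg _))]
    calc ∫ t, ‖f (x, t)‖ ≤ ((∫ t, ‖D t‖) + |a * x|) * exp (-x) := hnorm x
      _ = ((∫ t, ‖D t‖) + |a| * x) * exp (-x) := by rw [abs_mul, abs_of_pos (show (0 : ℝ) < x from hx)]
  have hR : ∀ t, R a F t - Hv t = ∫ x, f (x, t) ∂ν := by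
    intro t
    have e : ∀ x, (F (t + a * x) - Hv t) * exp (-x)
        = F (t + a * x) * exp (-x) - Hv t * exp (-x) := fun x => by ring
    simp only [hf, R, e]
    rw [integral_sub (hF.integrableOn t a) ((integrableOn_exp_neg_Ioi 0).const_mul _),
      integral_const_mul, integral_exp_neg_Ioi_zero, mul_one]
  have hR' : (fun t => R a F t - Hv t) = fun t => ∫ x, f (x, t) ∂ν := funext hR
  constructor
  · rw [hR']
    exact hprod.integral_prod_right
  · rw [hR']
    have hswap := integral_integral_swap (μ := ν) (ν := volume) (f := fun x t => f (x, t)) hprod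
    rw [← hswap]
    simp only [hsec_int]
    have e : (fun x => ((∫ t, D t) + a * x) * exp (-x))
        = fun x => (∫ t, D t) * exp (-x) + a * (x * exp (-x)) := by
      funext x; ring
    rw [e, integral_add ((integrableOn_exp_neg_Ioi 0).const_mul _)
      (integrableOn_mul_exp_neg.const_mul _), integral_const_mul, integral_const_mul,
      integral_exp_neg_Ioi_zero, integral_mul_exp_neg]
    ring


/-! ### Positivity and strict upper bound -/

/-- `F` is positive far to the right. -/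
def PosInf (F : ℝ → ℝ) : Prop := ∃ M : ℝ, ∀ t, M ≤ t → 0 < F t

/-- `F` is below one far to the left. -/
def LtOneNegInf (F : ℝ → ℝ) : Prop := ∃ M : ℝ, ∀ t, t ≤ M → F t < 1

theorem BM.R_ge_of_Ioc {F : ℝ → ℝ} (hF : BM F) (a t p q c : ℝ) (hp : 0 ≤ p) (hpq : p ≤ q)
    (hc : ∀ x ∈ Ioc p q, c ≤ F (t + a * x) * exp (-x)) : (q - p) * c ≤ R a F t := by
  have hsub : Ioc p q ⊆ Ioi 0 := fun x hx => lt_of_le_of_lt hp hx.1
  have h1 : ∫ x in Ioc p q, F (t + a * x) * exp (-x) ≤ R a F t := by
    refine setIntegral_mono_set (hF.integrableOn t a) ?_ (Filter.Eventually.of_forall hsub)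
    exact Filter.Eventually.of_forall (fun x => mul_nonneg (hF.nonneg _) (exp_pos _).le)
  have h2 := setIntegral_ge_of_const_le (μ := volume) measurableSet_Ioc measure_Ioc_lt_top.ne hc
    ((hF.integrableOn t a).mono_set hsub)
  rw [Real.volume_real_Ioc_of_le hpq, smul_eq_mul] at h2
  linarith

theorem BM.le_R_of_nonneg {F : ℝ → ℝ} (hF : BM F) (hm : Monotone F) {a : ℝ} (ha : 0 ≤ a) (t : ℝ) :
    F t ≤ R a F t := by
  have h1 : ∫ x in Ioi (0 : ℝ), F t * exp (-x) = F t := by
    rw [integral_const_mul, integral_exp_neg_Ioi_zero, mul_one]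
  rw [← h1]
  refine setIntegral_mono_on ((integrableOn_exp_neg_Ioi 0).const_mul _) (hF.integrableOn t a)
    measurableSet_Ioi ?_
  intro x hx
  have hx' : (0 : ℝ) < x := hx
  exact mul_le_mul_of_nonneg_right (hm (by nlinarith)) (exp_pos _).le

theorem BM.R_pos_of_neg {F : ℝ → ℝ} (hF : BM F) (hm : Monotone F) {a : ℝ} (ha : a < 0) (t : ℝ)
    (ht : 0 < F (t - 1)) : 0 < R a F t := by
  have hδ : 0 < (-a)⁻¹ := inv_pos.mpr (neg_pos.mpr ha)
  have h := hF.R_ge_of_Ioc a t 0 (-a)⁻¹ (F (t - 1) * exp (-(-a)⁻¹)) le_rfl hδ.le ?_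
  · have : 0 < ((-a)⁻¹ - 0) * (F (t - 1) * exp (-(-a)⁻¹)) := by positivity
    linarith
  · intro x hx
    have h1 : t - 1 ≤ t + a * x := by
      have : (-a) * x ≤ (-a) * (-a)⁻¹ := mul_le_mul_of_nonneg_left hx.2 (neg_pos.mpr ha).le
      rw [mul_inv_cancel₀ (neg_pos.mpr ha).ne'] at this
      linarith
    have h2 : exp (-(-a)⁻¹) ≤ exp (-x) := exp_le_exp.mpr (by linarith [hx.2])
    exact mul_le_mul (hm h1) h2 (exp_pos _).le (hF.nonneg _)

theorem BM.R_pos_of_pos {F : ℝ → ℝ} (hF : BM F) (hm : Monotone F) {a : ℝ} (ha : 0 < a)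
    (hP : PosInf F) (t : ℝ) : 0 < R a F t := by
  obtain ⟨M, hM⟩ := hP
  set x₀ : ℝ := max 0 ((M - t) / a) with hx₀
  have h := hF.R_ge_of_Ioc a t x₀ (x₀ + 1) (F M * exp (-(x₀ + 1))) (le_max_left _ _) (by linarith) ?_
  · have h0 : 0 < F M := hM M le_rfl
    have : 0 < (x₀ + 1 - x₀) * (F M * exp (-(x₀ + 1))) := by
      have : x₀ + 1 - x₀ = 1 := by ring
      rw [this]; positivity
    linarith
  · intro x hx
    have h1 : M ≤ t + a * x := by
      have h2 : (M - t) / a ≤ x := le_trans (le_max_right _ _) hx.1.le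
      have h3 : M - t ≤ a * x := by
        have := mul_le_mul_of_nonneg_left h2 ha.le
        rwa [mul_div_cancel₀ _ ha.ne'] at this
      linarith
    have h2 : exp (-(x₀ + 1)) ≤ exp (-x) := exp_le_exp.mpr (by linarith [hx.2])
    exact mul_le_mul (hm h1) h2 (exp_pos _).le (hF.nonneg _)

theorem BM.R_pos {F : ℝ → ℝ} (hF : BM F) (hm : Monotone F) (a : ℝ) (hP : ∀ t, 0 < F t) (t : ℝ) :
    0 < R a F t := by
  rcases lt_or_ge a 0 with ha | ha
  · exact hF.R_pos_of_neg hm ha t (hP _)
  · exact lt_of_lt_of_le (hP t) (hF.le_R_of_nonneg hm ha t)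

theorem BM.R_posInf {F : ℝ → ℝ} (hF : BM F) (hm : Monotone F) (a : ℝ) (hP : PosInf F) :
    PosInf (R a F) := by
  obtain ⟨M, hM⟩ := hP
  refine ⟨M + 1, fun t ht => ?_⟩
  rcases lt_or_ge a 0 with ha | ha
  · exact hF.R_pos_of_neg hm ha t (hM _ (by linarith))
  · exact lt_of_lt_of_le (hM t (by linarith)) (hF.le_R_of_nonneg hm ha t)

/-- The distribution function of the negated variable. -/
noncomputable def dualF (F : ℝ → ℝ) : ℝ → ℝ := fun t => 1 - F (-t)

theorem BM.bm_dual {F : ℝ → ℝ} (hF : BM F) : BM (dualF F) :=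
  ⟨measurable_const.sub (hF.meas.comp measurable_neg), fun t => by
    have := hF.le_one (-t); simp only [dualF]; linarith, fun t => by
    have := hF.nonneg (-t); simp only [dualF]; linarith⟩

theorem dual_mono {F : ℝ → ℝ} (hm : Monotone F) : Monotone (dualF F) := by
  intro t u htu
  have := hm (neg_le_neg htu)
  simp only [dualF]; linarith

theorem BM.dualF_R {F : ℝ → ℝ} (hF : BM F) (a : ℝ) : dualF (R a F) = R (-a) (dualF F) := by
  funext t
  simp only [dualF, R]
  have e : ∀ x : ℝ, (1 - F (-(t + -a * x))) * exp (-x)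
      = exp (-x) - F (-t + a * x) * exp (-x) := by
    intro x
    have : -(t + -a * x) = -t + a * x := by ring
    rw [this]; ring
  simp only [e]
  rw [integral_sub (integrableOn_exp_neg_Ioi 0) (hF.integrableOn (-t) a),
    integral_exp_neg_Ioi_zero]

theorem posInf_dual {F : ℝ → ℝ} (h : LtOneNegInf F) : PosInf (dualF F) := by
  obtain ⟨M, hM⟩ := h
  refine ⟨-M, fun t ht => ?_⟩
  have := hM (-t) (by linarith)
  simp only [dualF]; linarith

theorem BM.R_ltOneNegInf {F : ℝ → ℝ} (hF : BM F) (hm : Monotone F) (a : ℝ)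
    (hP : LtOneNegInf F) : LtOneNegInf (R a F) := by
  have h := hF.bm_dual.R_posInf (dual_mono hm) (-a) (posInf_dual hP)
  rw [← hF.dualF_R] at h
  obtain ⟨M, hM⟩ := h
  refine ⟨-M, fun t ht => ?_⟩
  have := hM (-t) (by linarith)
  simp only [dualF, neg_neg] at this
  linarith

theorem BM.R_lt_one {F : ℝ → ℝ} (hF : BM F) (hm : Monotone F) (a : ℝ) (hP : ∀ t, F t < 1)
    (t : ℝ) : R a F t < 1 := by
  have h := hF.bm_dual.R_pos (dual_mono hm) (-a) (fun s => by
    have := hP (-s); simp only [dualF]; linarith) (-t)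
  rw [← hF.dualF_R] at h
  simp only [dualF, neg_neg] at h
  linarith

theorem BM.R_lt_one_of_neg {F : ℝ → ℝ} (hF : BM F) (hm : Monotone F) {a : ℝ} (ha : a < 0)
    (hP : LtOneNegInf F) (t : ℝ) : R a F t < 1 := by
  have h := hF.bm_dual.R_pos_of_pos (dual_mono hm) (neg_pos.mpr ha) (posInf_dual hP) (-t)
  rw [← hF.dualF_R] at h
  simp only [dualF, neg_neg] at h
  linarith

/-! ### The invariant along `chain` -/

/-- The inductive invariant. -/
structure Inv (F : ℝ → ℝ) (m : ℝ) : Prop where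
  bm : BM F
  mono : Monotone F
  fourPt : FourPt F
  integrable : Integrable (fun t => F t - Hv t)
  mean : ∫ t, (F t - Hv t) = m
  posInf : PosInf F
  ltOneNegInf : LtOneNegInf F

theorem Hv_inv : Inv Hv 0 := by
  refine ⟨Hv_bm, Hv_mono, Hv_fourPt, ?_, ?_, ?_, ?_⟩
  · simp
  · simp
  · exact ⟨0, fun t ht => by simp [Hv, ht]⟩
  · refine ⟨-1, fun t ht => ?_⟩
    have : ¬ (0 ≤ t) := by linarith
    simp [Hv, this]

theorem Inv.R {F : ℝ → ℝ} {m : ℝ} (h : Inv F m) (a : ℝ) : Inv (R a F) (a + m) := by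
  obtain ⟨h1, h2⟩ := mean_R h.bm h.integrable a
  refine ⟨h.bm.R_bm h.mono a, h.bm.R_mono h.mono a, fourPt_R h.bm h.fourPt a, h1, ?_,
    h.bm.R_posInf h.mono a h.posInf, h.bm.R_ltOneNegInf h.mono a h.ltOneNegInf⟩
  rw [h2, h.mean, add_comm]

theorem chain_inv (l : List ℝ) : Inv (chain l) l.sum := by
  induction l with
  | nil => simpa [chain] using Hv_inv
  | cons a l ih =>
    rw [List.sum_cons]
    exact ih.R a

theorem chain_pos (l : List ℝ) (h : ∃ a ∈ l, 0 < a) : ∀ t, 0 < chain l t := by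
  induction l with
  | nil => obtain ⟨a, ha, _⟩ := h; simp at ha
  | cons b l ih =>
    have hi := chain_inv l
    obtain ⟨a, ha, ha0⟩ := h
    by_cases hb : 0 < b
    · exact fun t => hi.bm.R_pos_of_pos hi.mono hb hi.posInf t
    · have hal : a ∈ l := by
        rcases List.mem_cons.mp ha with h1 | h1
        · exact absurd (h1 ▸ ha0) hb
        · exact h1
      exact fun t => hi.bm.R_pos hi.mono b (ih ⟨a, hal, ha0⟩) t

theorem chain_lt_one (l : List ℝ) (h : ∃ a ∈ l, a < 0) : ∀ t, chain l t < 1 := by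
  induction l with
  | nil => obtain ⟨a, ha, _⟩ := h; simp at ha
  | cons b l ih =>
    have hi := chain_inv l
    obtain ⟨a, ha, ha0⟩ := h
    by_cases hb : b < 0
    · exact fun t => hi.bm.R_lt_one_of_neg hi.mono hb hi.ltOneNegInf t
    · have hal : a ∈ l := by
        rcases List.mem_cons.mp ha with h1 | h1
        · exact absurd (h1 ▸ ha0) hb
        · exact h1
      exact fun t => hi.bm.R_lt_one hi.mono b (ih ⟨a, hal, ha0⟩) t

theorem chain_continuous (l : List ℝ) (h : ∃ a ∈ l, a ≠ 0) : Continuous (chain l) := by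
  induction l with
  | nil => obtain ⟨a, ha, _⟩ := h; simp at ha
  | cons b l ih =>
    have hi := chain_inv l
    obtain ⟨a, ha, ha0⟩ := h
    by_cases hb : b = 0
    · have hal : a ∈ l := by
        rcases List.mem_cons.mp ha with h1 | h1
        · exact absurd (h1 ▸ hb) ha0
        · exact h1
      show Continuous (R b (chain l))
      rw [hb, R_zero]
      exact ih ⟨a, hal, ha0⟩
    · exact continuous_R hi.bm hb

/-- Main theorem of this module. -/
theorem chain_good (l : List ℝ) (hsum : l.sum = 0) (hpos : ∃ a ∈ l, 0 < a)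
    (hneg : ∃ a ∈ l, a < 0) : GoodCDF (chain l) := by
  have hi := chain_inv l
  obtain ⟨a, ha, ha0⟩ := hpos
  refine ⟨hi.mono, chain_continuous l ⟨a, ha, ha0.ne'⟩, chain_pos l ⟨a, ha, ha0⟩,
    chain_lt_one l hneg, hi.fourPt, hi.integrable, ?_⟩
  rw [hi.mean, hsum]

theorem chain_replicate_zero (n : ℕ) : chain (List.replicate n 0) = Hv := by
  induction n with
  | zero => rfl
  | succ n ih =>
    rw [List.replicate_succ]
    show R 0 (chain (List.replicate n 0)) = Hv
    rw [R_zero, ih]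

end Crest.Agent.Helper19
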