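import Crest.Agent.Helper19.S0423Defs

/-!
Shared definition for S0423 (row 280), module M1: the chain operator started from an arbitrary
function `f`.  `chainF f [a₁, …, aₙ] t = E f (t + a₁ X₁ + ⋯ + aₙ Xₙ)` for independent mean-one
exponential variables `Xᵢ`.
-/

namespace Crest.Agent.Helper19

/-- `chainF f l` : iterate the one-step operator `R a` over the list `l`, starting from `f`. -/
noncomputable def chainF (f : ℝ → ℝ) : List ℝ → ℝ → ℝ
  | [] => f
  | a :: l => R a (chainF f l)

end Crest.Agent.Helper19
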