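import Crest.Prelude.Def_TruncExpWeight
import Crest.Agent.Helper19.S0423Chain
import Crest.Agent.Helper19.S0423ChainF

/-!
One-dimensional part of module M1 of the S0423 development:
`truncExpWeight w = 1 - ∫_{s>0} Hv (w - s) s e^{-s} ds`, and this representation is preserved by
the one-step operators `R a`, so that
`chainF truncExpWeight l t = 1 - ∫_{s>0} chain l (t - s) s e^{-s} ds`.
-/

namespace Crest.Agent.Helper19

open MeasureTheory Set Real
open Crest.AlgGeometry (truncExpWeight)

/-- (c0) -/
theorem trunc_meas : Measurable truncExpWeight := by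
  unfold truncExpWeight
  exact Measurable.ite measurableSet_Iic measurable_const (by fun_prop)

/-- (c1) -/
theorem trunc_abs_le (y : ℝ) : |truncExpWeight y| ≤ 1 := by
  unfold truncExpWeight
  split_ifs with hy
  · simp
  · have hy' : 0 < y := not_le.1 hy
    have h1 : 0 ≤ (1 + y) * exp (-y) := mul_nonneg (by linarith) (exp_pos _).le
    rw [abs_of_nonneg h1]
    have h2 : 1 + y ≤ exp y := by
      have := Real.add_one_le_exp y
      linarith
    calc (1 + y) * exp (-y) ≤ exp y * exp (-y) :=
          mul_le_mul_of_nonneg_right h2 (exp_pos _).le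
      _ = 1 := by rw [← exp_add]; simp

theorem integral_Ioc_mul_exp_neg {w : ℝ} (hw : 0 ≤ w) :
    ∫ s in Ioc (0 : ℝ) w, s * exp (-s) = 1 - (1 + w) * exp (-w) := by
  rw [← intervalIntegral.integral_of_le hw]
  have hd : ∀ x ∈ uIcc (0 : ℝ) w,
      HasDerivAt (fun s : ℝ => -(1 + s) * exp (-s)) (x * exp (-x)) x := by
    intro x _
    have h1 : HasDerivAt (fun s : ℝ => -(1 + s)) (-1) x :=
      ((hasDerivAt_id x).const_add 1).neg
    have h2 : HasDerivAt (fun s : ℝ => exp (-s)) (exp (-x) * -1) x :=
      ((hasDerivAt_id x).neg).exp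
    exact (h1.mul h2).congr_deriv (by ring)
  have hi : IntervalIntegrable (fun s : ℝ => s * exp (-s)) volume 0 w :=
    (by fun_prop : Continuous fun s : ℝ => s * exp (-s)).intervalIntegrable _ _
  rw [intervalIntegral.integral_eq_sub_of_hasDerivAt hd hi]
  simp only [add_zero, neg_zero, exp_zero]
  ring

/-- (c2) -/
theorem trunc_eq (w : ℝ) :
    truncExpWeight w = 1 - ∫ s in Ioi (0 : ℝ), Hv (w - s) * (s * exp (-s)) := by
  unfold truncExpWeight
  split_ifs with hw
  · have h0 : ∫ s in Ioi (0 : ℝ), Hv (w - s) * (s * exp (-s)) = 0 := by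
      have e : ∀ s ∈ Ioi (0 : ℝ), Hv (w - s) * (s * exp (-s)) = (fun _ : ℝ => (0 : ℝ)) s := by
        intro s hs
        have hs' : (0 : ℝ) < s := hs
        have : ¬ ((0 : ℝ) ≤ w - s) := by linarith
        simp [Hv, this]
      rw [setIntegral_congr_fun measurableSet_Ioi e]
      simp
    rw [h0, sub_zero]
  · have hw' : 0 < w := not_le.1 hw
    have h1 : ∫ s in Ioi (0 : ℝ), Hv (w - s) * (s * exp (-s))
        = ∫ s in Ioc (0 : ℝ) w, s * exp (-s) := by
      have e : ∀ s : ℝ, Hv (w - s) * (s * exp (-s))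
          = (Iic w).indicator (fun s => s * exp (-s)) s := by
        intro s
        unfold Hv
        by_cases hs : s ≤ w
        · have : (0 : ℝ) ≤ w - s := by linarith
          simp [this, hs]
        · have : ¬ ((0 : ℝ) ≤ w - s) := by linarith
          simp [this, hs]
      simp only [e]
      rw [setIntegral_indicator measurableSet_Iic]
      congr 1
    rw [h1, integral_Ioc_mul_exp_neg hw'.le]
    ring

theorem BM.integrableOn_conv {F : ℝ → ℝ} (hF : BM F) (t : ℝ) :
    IntegrableOn (fun s => F (t - s) * (s * exp (-s))) (Ioi 0) := by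
  refine Integrable.mono' integrableOn_mul_exp_neg ?_ ?_
  · exact ((hF.meas.comp (by fun_prop)).mul (by fun_prop)).aestronglyMeasurable
  · refine (ae_restrict_iff' measurableSet_Ioi).2 (Filter.Eventually.of_forall fun s hs => ?_)
    have hs' : (0 : ℝ) < s := hs
    rw [norm_mul, Real.norm_eq_abs, Real.norm_eq_abs, abs_of_nonneg (hF.nonneg _),
      abs_of_nonneg (mul_nonneg hs'.le (exp_pos _).le)]
    exact mul_le_of_le_one_left (mul_nonneg hs'.le (exp_pos _).le) (hF.le_one _)

/-- (c3) -/
theorem R_conv (a : ℝ) (F G : ℝ → ℝ) (hF : BM F)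
    (hG : ∀ t, G t = 1 - ∫ s in Ioi (0 : ℝ), F (t - s) * (s * exp (-s))) (t : ℝ) :
    R a G t = 1 - ∫ s in Ioi (0 : ℝ), R a F (t - s) * (s * exp (-s)) := by
  -- the inner integral as a function of `x`
  have hint : Integrable (Function.uncurry fun (x s : ℝ) => F (t + a * x - s) * (s * exp (-s)) * exp (-x))
      ((volume.restrict (Ioi (0 : ℝ))).prod (volume.restrict (Ioi (0 : ℝ)))) := by
    have hb : Integrable (fun z : ℝ × ℝ => exp (-z.1) * (z.2 * exp (-z.2)))
        ((volume.restrict (Ioi (0 : ℝ))).prod (volume.restrict (Ioi (0 : ℝ)))) :=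
      Integrable.mul_prod (integrableOn_exp_neg_Ioi 0) integrableOn_mul_exp_neg
    refine Integrable.mono' hb ?_ ?_
    · refine Measurable.aestronglyMeasurable ?_
      have h1 : Measurable fun z : ℝ × ℝ => F (t + a * z.1 - z.2) := hF.meas.comp (by fun_prop)
      exact (h1.mul (by fun_prop)).mul (by fun_prop)
    · have hae : ∀ᵐ z : ℝ × ℝ ∂((volume.restrict (Ioi (0 : ℝ))).prod (volume.restrict (Ioi (0 : ℝ)))),
          z ∈ (Ioi (0 : ℝ)) ×ˢ (Ioi (0 : ℝ)) := by
        rw [Measure.prod_restrict]
        exact ae_restrict_mem (measurableSet_Ioi.prod measurableSet_Ioi)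
      filter_upwards [hae] with z hz
      obtain ⟨hz1, hz2⟩ := hz
      have hz2' : (0 : ℝ) < z.2 := hz2
      simp only [Function.uncurry]
      rw [norm_mul, norm_mul, Real.norm_eq_abs, Real.norm_eq_abs, Real.norm_eq_abs,
        abs_of_nonneg (hF.nonneg _), abs_of_nonneg (mul_nonneg hz2'.le (exp_pos _).le),
        abs_of_pos (exp_pos _)]
      have h2 : 0 ≤ z.2 * exp (-z.2) := mul_nonneg hz2'.le (exp_pos _).le
      have h3 : F (t + a * z.1 - z.2) * (z.2 * exp (-z.2)) ≤ z.2 * exp (-z.2) :=
        mul_le_of_le_one_left h2 (hF.le_one _)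
      calc F (t + a * z.1 - z.2) * (z.2 * exp (-z.2)) * exp (-z.1)
          ≤ (z.2 * exp (-z.2)) * exp (-z.1) := mul_le_mul_of_nonneg_right h3 (exp_pos _).le
        _ = exp (-z.1) * (z.2 * exp (-z.2)) := by ring
  have hswap := integral_integral_swap hint
  -- left side
  have hL : R a G t = 1 - ∫ x in Ioi (0 : ℝ), ∫ s in Ioi (0 : ℝ),
      F (t + a * x - s) * (s * exp (-s)) * exp (-x) := by
    unfold R
    have e1 : ∀ x : ℝ, G (t + a * x) * exp (-x)
        = exp (-x) - ∫ s in Ioi (0 : ℝ), F (t + a * x - s) * (s * exp (-s)) * exp (-x) := by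
      intro x
      rw [hG, integral_mul_const]
      ring
    simp only [e1]
    have hI2 : Integrable (fun x => ∫ s in Ioi (0 : ℝ),
        F (t + a * x - s) * (s * exp (-s)) * exp (-x)) (volume.restrict (Ioi (0 : ℝ))) :=
      hint.integral_prod_left
    rw [integral_sub (integrableOn_exp_neg_Ioi 0) hI2, integral_exp_neg_Ioi_zero]
  -- right side
  have hR : ∫ s in Ioi (0 : ℝ), R a F (t - s) * (s * exp (-s))
      = ∫ s in Ioi (0 : ℝ), ∫ x in Ioi (0 : ℝ),
        F (t + a * x - s) * (s * exp (-s)) * exp (-x) := by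
    refine integral_congr_ae (Filter.Eventually.of_forall fun s => ?_)
    simp only [R]
    rw [← integral_mul_const]
    refine integral_congr_ae (Filter.Eventually.of_forall fun x => ?_)
    simp only
    rw [show t - s + a * x = t + a * x - s by ring]
    ring
  rw [hL, hR, hswap]

/-- (c4) -/
theorem chainF_trunc (l : List ℝ) (t : ℝ) :
    chainF truncExpWeight l t = 1 - ∫ s in Ioi (0 : ℝ), chain l (t - s) * (s * exp (-s)) := by
  induction l generalizing t with
  | nil => simpa [chainF, chain] using trunc_eq t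
  | cons a l ih =>
    simp only [chainF, chain]
    exact R_conv a (chain l) (chainF truncExpWeight l) (chain_inv l).bm ih t

end Crest.Agent.Helper19
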