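import Mathlib
import Crest.Prelude.Def_TreePotentials

/-!
Coefficient-level core for the tree-potential models (S0168, row 125): the coefficient family of
a potential, the delta tests, and the test-splitting construction `hp`.
-/

namespace Crest.Agent.Helper19.TP

open Crest.AnalysisR Crest.AnalysisR.TreePotential

/-- The coefficient family with potential `φ`. -/
def coef (φ : List ℕ → ℝ) : List ℕ → ℝ
  | [] => φ []
  | a :: v => φ (a :: v) - φ v

theorem pathPotential_coef (φ : List ℕ → ℝ) (u : List ℕ) : pathPotential (coef φ) u = φ u := by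
  induction u with
  | nil => rfl
  | cons a v ih => simp [pathPotential, coef, ih]

theorem pathPotential_neg (f : List ℕ → ℝ) (u : List ℕ) :
    pathPotential (-f) u = -pathPotential f u := by
  induction u with
  | nil => rfl
  | cons a v ih => simp [pathPotential, ih]; ring

theorem pathPotential_zero (u : List ℕ) : pathPotential (0 : List ℕ → ℝ) u = 0 := by
  induction u with
  | nil => rfl
  | cons a v ih => simp [pathPotential, ih]

/-! ### Basic tests -/

theorem isTest_zero (m : PotentialModel) : IsTest m (0 : List ℕ → ℝ) := by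
  refine ⟨fun s => by simp [pathPotential_zero], ?_⟩
  cases m
  · exact ⟨rfl, fun r A => by simp⟩
  · exact fun r A => by simp
  · refine ⟨by simp, fun A _ => by simp⟩
  · exact fun A => by simp

theorem isTest_neg {m : PotentialModel} {f : List ℕ → ℝ} (hf : IsTest m f) : IsTest m (-f) := by
  refine ⟨fun s => by rw [pathPotential_neg, abs_neg]; exact hf.1 s, ?_⟩
  have h2 := hf.2
  cases m
  · exact ⟨by simp [h2.1], fun r A => by simpa using h2.2 r A⟩
  · exact fun r A => by simpa using h2 r A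
  · refine ⟨by simpa [Function.support_neg] using h2.1, fun A hA => by simpa using h2.2 A hA⟩
  · exact fun A => by simpa using h2 A

/-- The delta family at `s`. -/
def delta (s : List ℕ) : List ℕ → ℝ := fun u => if u = s then 1 else 0

theorem pathPotential_delta (s u : List ℕ) :
    pathPotential (delta s) u = if s <:+ u then 1 else 0 := by
  induction u with
  | nil =>
    simp only [pathPotential, delta, List.suffix_nil]
    by_cases h : s = []
    · simp [h]
    · simp [h, Ne.symm h]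
  | cons a v ih =>
    simp only [pathPotential, ih, delta, List.suffix_cons_iff]
    by_cases h1 : s = a :: v
    · have h2 : ¬ s <:+ v := by
        intro h
        have := h.length_le
        rw [h1] at this
        simp at this
      simp [h1, h2]
      intro h
      have := h.length_le
      simp at this
    · by_cases h2 : s <:+ v
      · simp [h1, h2, Ne.symm h1]
      · simp [h1, h2, Ne.symm h1]

theorem sum_delta_sq_le {ι : Type*} (A : Finset ι) (e : ι → List ℕ) (he : Set.InjOn e A)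
    (s : List ℕ) : ∑ i ∈ A, delta s (e i) ^ 2 ≤ 1 := by
  classical
  by_cases h : ∃ i ∈ A, e i = s
  · obtain ⟨i, hi, hes⟩ := h
    rw [Finset.sum_eq_single i]
    · simp [delta, hes]
    · intro j hj hji
      have : e j ≠ s := fun hjs => hji (he hj hi (hjs.trans hes.symm))
      simp [delta, this]
    · intro hi'; exact absurd hi hi'
  · simp only [not_exists, not_and] at h
    rw [Finset.sum_eq_zero]
    · norm_num
    · intro j hj
      simp [delta, h j hj]

theorem isTest_delta (m : PotentialModel) (s : List ℕ) (hs : m = .rootlessSibling → s ≠ []) :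
    IsTest m (delta s) := by
  refine ⟨fun u => ?_, ?_⟩
  · rw [pathPotential_delta]
    split_ifs <;> norm_num
  · cases m
    · refine ⟨?_, fun r A => ?_⟩
      · have := hs rfl
        simp [delta, Ne.symm this]
      · exact sum_delta_sq_le A (fun n => n :: r) (fun a _ b _ h => by simpa using h) s
    · exact fun r A => sum_delta_sq_le A (fun n => n :: r) (fun a _ b _ h => by simpa using h) s
    · refine ⟨?_, fun A _ => ?_⟩
      · refine (Set.finite_singleton s).subset ?_
        intro u hu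
        simp only [Function.mem_support, delta, ne_eq, ite_eq_right_iff, one_ne_zero, imp_false,
          not_not] at hu
        exact hu
      · exact sum_delta_sq_le A id (fun a _ b _ h => h) s
    · exact fun A => sum_delta_sq_le A id (fun a _ b _ h => h) s

/-! ### Restrictions to an ancestor-closed finite set -/

/-- `T` contains the root and is closed under taking parents. -/
def AncClosed (T : Finset (List ℕ)) : Prop := [] ∈ T ∧ ∀ a v, a :: v ∈ T → v ∈ T

/-- Restriction of a coefficient family to `T`. -/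
def resT (T : Finset (List ℕ)) (f : List ℕ → ℝ) : List ℕ → ℝ := fun s => if s ∈ T then f s else 0

/-- Restriction of a coefficient family to the complement of `T`. -/
def resC (T : Finset (List ℕ)) (g : List ℕ → ℝ) : List ℕ → ℝ := fun s => if s ∈ T then 0 else g s

theorem pot_resT_of_mem {T : Finset (List ℕ)} (hT : AncClosed T) (f : List ℕ → ℝ) :
    ∀ u ∈ T, pathPotential (resT T f) u = pathPotential f u
  | [], h => by simp [pathPotential, resT, h]
  | a :: v, h => by
    have hv := hT.2 a v h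
    simp [pathPotential, resT, h, pot_resT_of_mem hT f v hv]

theorem pot_resC_of_mem {T : Finset (List ℕ)} (hT : AncClosed T) (g : List ℕ → ℝ) :
    ∀ u ∈ T, pathPotential (resC T g) u = 0
  | [], h => by simp [pathPotential, resC, h]
  | a :: v, h => by
    have hv := hT.2 a v h
    simp [pathPotential, resC, h, pot_resC_of_mem hT g v hv]

theorem pot_resT_eq {T : Finset (List ℕ)} (hT : AncClosed T) (f : List ℕ → ℝ) :
    ∀ u, ∃ w, pathPotential (resT T f) u = pathPotential f w
  | [] => ⟨[], pot_resT_of_mem hT f [] hT.1⟩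
  | a :: v => by
    by_cases h : a :: v ∈ T
    · exact ⟨a :: v, pot_resT_of_mem hT f _ h⟩
    · obtain ⟨w, hw⟩ := pot_resT_eq hT f v
      exact ⟨w, by simp [pathPotential, resT, h, hw]⟩

theorem pot_resC (T : Finset (List ℕ)) (g : List ℕ → ℝ) (u : List ℕ) :
    pathPotential (resC T g) u = pathPotential g u - pathPotential (resT T g) u := by
  induction u with
  | nil => by_cases h : ([] : List ℕ) ∈ T <;> simp [pathPotential, resC, resT, h]
  | cons a v ih =>
    by_cases h : a :: v ∈ T <;> simp [pathPotential, resC, resT, h, ih] <;> ring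

theorem pot_resC_neg (T : Finset (List ℕ)) (g : List ℕ → ℝ) (u : List ℕ) :
    pathPotential (resC T (-g)) u = -pathPotential (resC T g) u := by
  induction u with
  | nil => by_cases h : ([] : List ℕ) ∈ T <;> simp [pathPotential, resC, h]
  | cons a v ih =>
    by_cases h : a :: v ∈ T <;> simp [pathPotential, resC, h, ih] <;> ring

theorem abs_pot_resT_le {T : Finset (List ℕ)} (hT : AncClosed T) {f : List ℕ → ℝ}
    (hf : ∀ s, |pathPotential f s| ≤ 1) (u : List ℕ) : |pathPotential (resT T f) u| ≤ 1 := by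
  obtain ⟨w, hw⟩ := pot_resT_eq hT f u
  rw [hw]; exact hf w

theorem abs_pot_resC_le {T : Finset (List ℕ)} (hT : AncClosed T) {g : List ℕ → ℝ}
    (hg : ∀ s, |pathPotential g s| ≤ 1) (u : List ℕ) : |pathPotential (resC T g) u| ≤ 2 := by
  rw [pot_resC]
  have h1 := hg u
  have h2 := abs_pot_resT_le hT hg u
  rw [abs_le] at h1 h2 ⊢
  constructor <;> linarith [h1.1, h1.2, h2.1, h2.2]

/-! ### The splitting construction -/

/-- Real-number kernel of the construction. -/
noncomputable def kern (α θ p r : ℝ) : ℝ :=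
  α * p + θ * ((1 - α * p) / 2 * max r 0 + (1 + α * p) / 2 * min r 0)

theorem abs_kern_le_one {α θ p r : ℝ} (hα : 0 ≤ α) (hα1 : α ≤ 1) (hθ : 0 ≤ θ) (hθ1 : θ ≤ 1)
    (hp : |p| ≤ 1) (hr : |r| ≤ 2) : |kern α θ p r| ≤ 1 := by
  rw [abs_le] at hp hr
  have hq1 : α * p ≤ 1 := by nlinarith [hp.1, hp.2]
  have hq2 : -1 ≤ α * p := by nlinarith [hp.1, hp.2]
  unfold kern
  set q := α * p with hq
  rw [abs_le]
  rcases le_total 0 r with h | h
  · rw [max_eq_left h, min_eq_right h]
    constructor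
    · nlinarith [mul_nonneg hθ (mul_nonneg (sub_nonneg.2 hq1) h)]
    · nlinarith [mul_nonneg hθ (mul_nonneg (sub_nonneg.2 hq1) (sub_nonneg.2 hr.2)),
        mul_nonneg (sub_nonneg.2 hθ1) (sub_nonneg.2 hq1)]
  · rw [max_eq_right h, min_eq_left h]
    have h1 : 0 ≤ 1 + q := by linarith
    constructor
    · nlinarith [mul_nonneg hθ (mul_nonneg h1 (by linarith [hr.1] : (0 : ℝ) ≤ r + 2)),
        mul_nonneg (sub_nonneg.2 hθ1) h1]
    · nlinarith [mul_nonneg hθ (mul_nonneg h1 (neg_nonneg.2 h))]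

theorem kern_sub_abs_le {α θ p r γ : ℝ} (hα : 0 ≤ α) (hα1 : α ≤ 1) (hθ : 0 ≤ θ)
    (hp : |p| ≤ 1) : |kern α θ p (r + γ) - kern α θ p r| ≤ θ * (1 + α) / 2 * |γ| := by
  rw [abs_le] at hp
  have hq1 : α * p ≤ α := by nlinarith [hp.1, hp.2]
  have hq2 : -α ≤ α * p := by nlinarith [hp.1, hp.2]
  unfold kern
  set q := α * p with hq
  have hsum : ∀ x : ℝ, max x 0 + min x 0 = x := fun x => by
    have := max_add_min x 0; linarith
  set A := max (r + γ) 0 - max r 0 with hA
  set B := min (r + γ) 0 - min r 0 with hB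
  have hAB : A + B = γ := by
    have h1 := hsum (r + γ); have h2 := hsum r
    rw [hA, hB]; linarith
  have e : α * p + θ * ((1 - q) / 2 * max (r + γ) 0 + (1 + q) / 2 * min (r + γ) 0) -
      (α * p + θ * ((1 - q) / 2 * max r 0 + (1 + q) / 2 * min r 0))
      = θ * ((1 - q) / 2 * A + (1 + q) / 2 * B) := by rw [hA, hB]; ring
  rw [e]
  rcases le_total 0 γ with h | h
  · have hA0 : 0 ≤ A := sub_nonneg.2 (max_le_max (by linarith) le_rfl)
    have hB0 : 0 ≤ B := sub_nonneg.2 (min_le_min (by linarith) le_rfl)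
    rw [abs_of_nonneg h, abs_le]
    have h1 : 0 ≤ (1 - q) / 2 * A := mul_nonneg (by linarith) hA0
    have h2 : 0 ≤ (1 + q) / 2 * B := mul_nonneg (by linarith) hB0
    have h3 : (1 - q) / 2 * A ≤ (1 + α) / 2 * A := mul_le_mul_of_nonneg_right (by linarith) hA0
    have h4 : (1 + q) / 2 * B ≤ (1 + α) / 2 * B := mul_le_mul_of_nonneg_right (by linarith) hB0
    constructor
    · nlinarith [mul_nonneg hθ (add_nonneg h1 h2), mul_nonneg hθ (mul_nonneg (by linarith : (0:ℝ) ≤ (1 + α) / 2) h)]
    · have : θ * ((1 - q) / 2 * A + (1 + q) / 2 * B) ≤ θ * ((1 + α) / 2 * (A + B)) :=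
        mul_le_mul_of_nonneg_left (by linarith) hθ
      rw [hAB] at this
      linarith
  · have hA0 : A ≤ 0 := sub_nonpos.2 (max_le_max (by linarith) le_rfl)
    have hB0 : B ≤ 0 := sub_nonpos.2 (min_le_min (by linarith) le_rfl)
    rw [abs_of_nonpos h, abs_le]
    have h1 : (1 - q) / 2 * A ≤ 0 := mul_nonpos_of_nonneg_of_nonpos (by linarith) hA0
    have h2 : (1 + q) / 2 * B ≤ 0 := mul_nonpos_of_nonneg_of_nonpos (by linarith) hB0
    have h3 : (1 + α) / 2 * A ≤ (1 - q) / 2 * A := mul_le_mul_of_nonpos_right (by linarith) hA0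
    have h4 : (1 + α) / 2 * B ≤ (1 + q) / 2 * B := mul_le_mul_of_nonpos_right (by linarith) hB0
    constructor
    · have : θ * ((1 + α) / 2 * (A + B)) ≤ θ * ((1 - q) / 2 * A + (1 + q) / 2 * B) :=
        mul_le_mul_of_nonneg_left (by linarith) hθ
      rw [hAB] at this
      linarith
    · nlinarith [mul_nonneg hθ (neg_nonneg.2 (add_nonpos h1 h2)),
        mul_nonneg hθ (mul_nonneg (by linarith : (0:ℝ) ≤ (1 + α) / 2) (neg_nonneg.2 h))]

theorem kern_diff (α θ p r γ : ℝ) :
    (kern α θ p (r + γ) - kern α θ p r) - (kern α θ p (-r + -γ) - kern α θ p (-r)) = θ * γ := by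
  have hmax : ∀ x : ℝ, max x 0 = (x + |x|) / 2 := fun x => by
    rcases le_total 0 x with h | h
    · rw [max_eq_left h, abs_of_nonneg h]; ring
    · rw [max_eq_right h, abs_of_nonpos h]; ring
  have hmin : ∀ x : ℝ, min x 0 = (x - |x|) / 2 := fun x => by
    rcases le_total 0 x with h | h
    · rw [min_eq_right h, abs_of_nonneg h]; ring
    · rw [min_eq_left h, abs_of_nonpos h]; ring
  unfold kern
  rw [hmax, hmax, hmax, hmax, hmin, hmin, hmin, hmin,
    show -r + -γ = -(r + γ) by ring, abs_neg, abs_neg]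
  ring

/-- The potential of the split test. -/
noncomputable def HP (α θ : ℝ) (T : Finset (List ℕ)) (f g : List ℕ → ℝ) (u : List ℕ) : ℝ :=
  kern α θ (pathPotential (resT T f) u) (pathPotential (resC T g) u)

/-- The split test. -/
noncomputable def hp (α θ : ℝ) (T : Finset (List ℕ)) (f g : List ℕ → ℝ) : List ℕ → ℝ :=
  coef (HP α θ T f g)

theorem HP_of_mem {α θ : ℝ} {T : Finset (List ℕ)} (hT : AncClosed T) (f g : List ℕ → ℝ)
    {u : List ℕ} (hu : u ∈ T) : HP α θ T f g u = α * pathPotential f u := by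
  unfold HP kern
  rw [pot_resT_of_mem hT f u hu, pot_resC_of_mem hT g u hu]
  simp

theorem hp_of_mem {α θ : ℝ} {T : Finset (List ℕ)} (hT : AncClosed T) (f g : List ℕ → ℝ)
    {s : List ℕ} (hs : s ∈ T) : hp α θ T f g s = α * f s := by
  cases s with
  | nil =>
    show HP α θ T f g [] = _
    rw [HP_of_mem hT f g hs]; rfl
  | cons a v =>
    show HP α θ T f g (a :: v) - HP α θ T f g v = _
    rw [HP_of_mem hT f g hs, HP_of_mem hT f g (hT.2 a v hs)]
    simp only [pathPotential]; ring

theorem hp_of_not_mem (α θ : ℝ) (T : Finset (List ℕ)) (f g : List ℕ → ℝ)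
    {a : ℕ} {v : List ℕ} (hs : a :: v ∉ T) :
    hp α θ T f g (a :: v) = kern α θ (pathPotential (resT T f) v)
        (pathPotential (resC T g) v + g (a :: v)) -
      kern α θ (pathPotential (resT T f) v) (pathPotential (resC T g) v) := by
  show HP α θ T f g (a :: v) - HP α θ T f g v = _
  unfold HP
  simp [pathPotential, resT, resC, hs]

theorem hp_sq_le {α θ : ℝ} {T : Finset (List ℕ)} (hT : AncClosed T) {f g : List ℕ → ℝ}
    (hα : 0 ≤ α) (hα1 : α ≤ 1) (hθ : 0 ≤ θ) (hf : ∀ s, |pathPotential f s| ≤ 1) (s : List ℕ) :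
    hp α θ T f g s ^ 2 ≤ α ^ 2 * f s ^ 2 + (θ * (1 + α) / 2) ^ 2 * g s ^ 2 := by
  by_cases hs : s ∈ T
  · rw [hp_of_mem hT f g hs]
    nlinarith [sq_nonneg (θ * (1 + α) / 2 * g s)]
  · cases s with
    | nil => exact absurd hT.1 hs
    | cons a v =>
      rw [hp_of_not_mem α θ T f g hs]
      have h := kern_sub_abs_le (r := pathPotential (resC T g) v) (γ := g (a :: v)) hα hα1 hθ
        (abs_pot_resT_le hT hf v)
      have h2 : (kern α θ (pathPotential (resT T f) v) (pathPotential (resC T g) v + g (a :: v)) -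
          kern α θ (pathPotential (resT T f) v) (pathPotential (resC T g) v)) ^ 2
          ≤ (θ * (1 + α) / 2 * |g (a :: v)|) ^ 2 := by
        rw [← sq_abs]
        exact pow_le_pow_left₀ (abs_nonneg _) h 2
      rw [mul_pow, sq_abs] at h2
      nlinarith [sq_nonneg (α * f (a :: v))]

theorem abs_hp_le_of_not_mem {α θ : ℝ} {T : Finset (List ℕ)} (hT : AncClosed T) {f g : List ℕ → ℝ}
    (hα : 0 ≤ α) (hα1 : α ≤ 1) (hθ : 0 ≤ θ) (hf : ∀ s, |pathPotential f s| ≤ 1) {s : List ℕ}
    (hs : s ∉ T) : |hp α θ T f g s| ≤ θ * (1 + α) / 2 * |g s| := by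
  cases s with
  | nil => exact absurd hT.1 hs
  | cons a v =>
    rw [hp_of_not_mem α θ T f g hs]
    exact kern_sub_abs_le hα hα1 hθ (abs_pot_resT_le hT hf v)

theorem hp_sub_hp_neg {α θ : ℝ} {T : Finset (List ℕ)} (hT : AncClosed T) (f g : List ℕ → ℝ)
    {s : List ℕ} (hs : s ∉ T) : hp α θ T f g s - hp α θ T f (-g) s = θ * g s := by
  cases s with
  | nil => exact absurd hT.1 hs
  | cons a v =>
    rw [hp_of_not_mem α θ T f g hs, hp_of_not_mem α θ T f (-g) hs, pot_resC_neg]
    exact kern_diff _ _ _ _ _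

theorem hp_add_hp_neg {α θ : ℝ} {T : Finset (List ℕ)} (hT : AncClosed T) (f g : List ℕ → ℝ)
    {s : List ℕ} (hs : s ∈ T) : hp α θ T f g s + hp α θ T f (-g) s = 2 * α * f s := by
  rw [hp_of_mem hT f g hs, hp_of_mem hT f (-g) hs]; ring

theorem sum_hp_sq_le {α θ : ℝ} {T : Finset (List ℕ)} (hT : AncClosed T) {f g : List ℕ → ℝ}
    (hα : 0 ≤ α) (hα1 : α ≤ 1) (hθ : 0 ≤ θ) (hαθ : α ^ 2 + θ ^ 2 * (1 + α) ^ 2 / 4 ≤ 1)
    (hf : ∀ s, |pathPotential f s| ≤ 1) {ι : Type*} (A : Finset ι) (e : ι → List ℕ)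
    (h1 : ∑ i ∈ A, f (e i) ^ 2 ≤ 1) (h2 : ∑ i ∈ A, g (e i) ^ 2 ≤ 1) :
    ∑ i ∈ A, hp α θ T f g (e i) ^ 2 ≤ 1 := by
  have h3 : ∑ i ∈ A, hp α θ T f g (e i) ^ 2
      ≤ ∑ i ∈ A, (α ^ 2 * f (e i) ^ 2 + (θ * (1 + α) / 2) ^ 2 * g (e i) ^ 2) :=
    Finset.sum_le_sum fun i _ => hp_sq_le hT hα hα1 hθ hf (e i)
  rw [Finset.sum_add_distrib, ← Finset.mul_sum, ← Finset.mul_sum] at h3
  have h4 : α ^ 2 * ∑ i ∈ A, f (e i) ^ 2 ≤ α ^ 2 * 1 :=
    mul_le_mul_of_nonneg_left h1 (sq_nonneg _)
  have h5 : (θ * (1 + α) / 2) ^ 2 * ∑ i ∈ A, g (e i) ^ 2 ≤ (θ * (1 + α) / 2) ^ 2 * 1 :=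
    mul_le_mul_of_nonneg_left h2 (sq_nonneg _)
  nlinarith

theorem isTest_hp {m : PotentialModel} {α θ : ℝ} {T : Finset (List ℕ)} (hT : AncClosed T)
    {f g : List ℕ → ℝ} (hf : IsTest m f) (hg : IsTest m g)
    (hα : 0 ≤ α) (hα1 : α ≤ 1) (hθ : 0 ≤ θ) (hθ1 : θ ≤ 1)
    (hαθ : α ^ 2 + θ ^ 2 * (1 + α) ^ 2 / 4 ≤ 1) : IsTest m (hp α θ T f g) := by
  refine ⟨fun s => ?_, ?_⟩
  · rw [hp, pathPotential_coef]
    exact abs_kern_le_one hα hα1 hθ hθ1 (abs_pot_resT_le hT hf.1 s) (abs_pot_resC_le hT hg.1 s)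
  · have hf2 := hf.2
    have hg2 := hg.2
    cases m
    · refine ⟨?_, fun r A => ?_⟩
      · rw [hp_of_mem hT f g hT.1, hf2.1, mul_zero]
      · exact sum_hp_sq_le hT hα hα1 hθ hαθ hf.1 A (fun n => n :: r) (hf2.2 r A) (hg2.2 r A)
    · exact fun r A =>
        sum_hp_sq_le hT hα hα1 hθ hαθ hf.1 A (fun n => n :: r) (hf2 r A) (hg2 r A)
    · refine ⟨?_, fun A hA => ?_⟩
      · refine (hf2.1.union hg2.1).subset ?_
        intro s hs
        by_contra hcon
        simp only [Set.mem_union, Function.mem_support, not_or, not_not] at hcon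
        have h := hp_sq_le (g := g) hT hα hα1 hθ hf.1 s
        rw [hcon.1, hcon.2] at h
        have h0 : hp α θ T f g s ^ 2 ≤ 0 := by simpa using h
        have : hp α θ T f g s = 0 := by nlinarith [sq_nonneg (hp α θ T f g s)]
        exact hs this
      · exact sum_hp_sq_le hT hα hα1 hθ hαθ hf.1 A id (hf2.2 A hA) (hg2.2 A hA)
    · exact fun A => sum_hp_sq_le hT hα hα1 hθ hαθ hf.1 A id (hf2 A) (hg2 A)

end Crest.Agent.Helper19.TP
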