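import Crest.Agent.Helper7.TreeDefs
import Crest.Agent.Helper7.AUCWeakNull
import Crest.Agent.Helper19.TreePotCore

/-!
Row 125, module TREE-AMUC: for every tree-potential class (`PotClass Extra`), density of the
finitely supported vectors, the block inequality
`sqrt (4 ‖c‖² + ‖y‖²) ≤ ‖c + y‖ + ‖c - y‖` (`c` supported on a finite ancestor-closed set, the
coordinates of `y` vanishing there), and the resulting lower bound for the averaged midpoint
modulus.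
-/

namespace Crest.Agent.Helper19.TA

open Crest.AnalysisR Crest.AnalysisR.TreePotential Crest.Agent.Helper7 Crest.Agent.Helper7.Tree
open Crest.Agent.Helper19.TP
open scoped ENNReal

variable {Extra : (List ℕ → ℝ) → Prop}

/-! ### Tests -/

theorem isT_zero (hE : PotClass Extra) : IsT Extra 0 :=
  ⟨fun s => by simp [pathPotential_zero], hE.zero⟩

theorem isT_neg (hE : PotClass Extra) {f : List ℕ → ℝ} (hf : IsT Extra f) : IsT Extra (-f) :=
  ⟨fun s => by rw [pathPotential_neg, abs_neg]; exact hf.1 s,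
    hE.mix f f (-f) Set.univ 1 0 (by norm_num) le_rfl (by norm_num) hf.2 hf.2
      (fun s _ => by simp) (fun s hs => absurd (Set.mem_univ s) hs)⟩

theorem single_eq_delta (s : List ℕ) : (Pi.single s (1 : ℝ) : List ℕ → ℝ) = delta s := by
  funext u
  simp [delta, Pi.single_apply]

theorem isT_single {s : List ℕ} (hs : Extra (Pi.single s 1)) : IsT Extra (Pi.single s 1) :=
  ⟨fun u => by
    rw [single_eq_delta, pathPotential_delta]
    split_ifs <;> norm_num, hs⟩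

theorem isT_hp (hE : PotClass Extra) {α θ : ℝ} {T : Finset (List ℕ)} (hT : AncClosed T)
    {f g : List ℕ → ℝ} (hf : IsT Extra f) (hg : IsT Extra g)
    (hα : 0 ≤ α) (hα1 : α ≤ 1) (hθ : 0 ≤ θ) (hθ1 : θ ≤ 1)
    (hαθ : α ^ 2 + θ ^ 2 * (1 + α) ^ 2 / 4 ≤ 1) : IsT Extra (hp α θ T f g) := by
  refine ⟨fun s => ?_, ?_⟩
  · rw [hp, pathPotential_coef]
    exact abs_kern_le_one hα hα1 hθ hθ1 (abs_pot_resT_le hT hf.1 s) (abs_pot_resC_le hT hg.1 s)
  · refine hE.mix f g (hp α θ T f g) (↑T) α (θ * (1 + α) / 2) hα (by positivity) ?_ hf.2 hg.2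
      ?_ ?_
    · have : (θ * (1 + α) / 2) ^ 2 = θ ^ 2 * (1 + α) ^ 2 / 4 := by ring
      rw [this]; exact hαθ
    · intro s hs
      rw [hp_of_mem hT f g (Finset.mem_coe.1 hs), abs_mul, abs_of_nonneg hα]
    · intro s hs
      exact abs_hp_le_of_not_mem hT hα hα1 hθ hf.1 (fun h => hs (Finset.mem_coe.2 h))

/-- The negative of a test. -/
def negT (hE : PotClass Extra) (f : Test Extra) : Test Extra := ⟨-f.1, isT_neg hE f.2⟩

/-! ### Norms and evaluations -/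

theorem exists_evalT_gt (hE : PotClass Extra) (y : space Extra) {ε : ℝ} (hε : 0 < ε) :
    ∃ f : Test Extra, ‖y‖ - ε < |evalT Extra f y| := by
  have : Nonempty (Test Extra) := ⟨⟨0, isT_zero hE⟩⟩
  obtain ⟨b, ⟨f, rfl⟩, hb, -⟩ :=
    (lp.isLUB_norm (y : lp (fun _ : Test Extra => ℝ) ⊤)).exists_between (sub_lt_self _ hε)
  exact ⟨f, by simpa [Real.norm_eq_abs] using hb⟩

theorem evalT_le_norm (f : Test Extra) (y : space Extra) : evalT Extra f y ≤ ‖y‖ :=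
  (le_abs_self _).trans (abs_evalT_le Extra f y)

theorem abs_evalT_le' (f : Test Extra) (y : space Extra) : |evalT Extra f y| ≤ ‖y‖ :=
  abs_evalT_le Extra f y

theorem evalT_negT_vec (hE : PotClass Extra) (f : Test Extra) (T : Finset (List ℕ))
    (c : List ℕ → ℝ) : evalT Extra (negT hE f) (vec Extra T c) = -evalT Extra f (vec Extra T c) := by
  rw [evalT_vec, evalT_vec, ← Finset.sum_neg_distrib]
  refine Finset.sum_congr rfl fun s _ => ?_
  simp [negT]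

theorem exists_vec_gt (hE : PotClass Extra) (T : Finset (List ℕ)) (c : List ℕ → ℝ) {ε : ℝ}
    (hε : 0 < ε) : ∃ f : Test Extra, ‖vec Extra T c‖ - ε < evalT Extra f (vec Extra T c) := by
  obtain ⟨f, hf⟩ := exists_evalT_gt hE (vec Extra T c) hε
  rcases le_total 0 (evalT Extra f (vec Extra T c)) with h | h
  · exact ⟨f, by rwa [abs_of_nonneg h] at hf⟩
  · exact ⟨negT hE f, by rw [evalT_negT_vec]; rwa [abs_of_nonpos h] at hf⟩

theorem norm_e_le (s : List ℕ) : ‖e Extra s‖ ≤ 2 :=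
  lp.norm_le_of_forall_le (by norm_num) fun f => by
    simpa [Real.norm_eq_abs] using abs_le_two_of_pot f.2.1 s

theorem e_eq_zero_of_dead {s : List ℕ} (hdead : ∀ f, Extra f → f s = 0) : e Extra s = 0 := by
  apply Subtype.ext
  ext f
  simp only [e_coe, coordVec_apply]
  exact hdead f.1 f.2.2

theorem evalT_single_vec {s : List ℕ} (hs : IsT Extra (Pi.single s 1)) (T₁ : Finset (List ℕ))
    (d : List ℕ → ℝ) :
    evalT Extra ⟨Pi.single s 1, hs⟩ (vec Extra T₁ d) = if s ∈ T₁ then d s else 0 := by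
  have h := evalT_vec Extra (⟨Pi.single s 1, hs⟩ : Test Extra) T₁ d
  rw [h]
  simp only [Pi.single_apply, mul_ite, mul_one, mul_zero]
  rw [Finset.sum_ite_eq']

/-! ### The splitting inequality for finitely supported vectors -/

theorem split_fin (hE : PotClass Extra) {T : Finset (List ℕ)} (hT : AncClosed T)
    (T₁ : Finset (List ℕ)) (c d : List ℕ → ℝ) (hd : ∀ s ∈ T, d s = 0) {α θ : ℝ}
    (hα : 0 ≤ α) (hα1 : α ≤ 1) (hθ : 0 ≤ θ) (hθ1 : θ ≤ 1)
    (hαθ : α ^ 2 + θ ^ 2 * (1 + α) ^ 2 / 4 ≤ 1) :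
    2 * α * ‖vec Extra T c‖ + θ * ‖vec Extra T₁ d‖
      ≤ ‖vec Extra T c + vec Extra T₁ d‖ + ‖vec Extra T c - vec Extra T₁ d‖ := by
  refine le_of_forall_pos_le_add fun ε hε => ?_
  have hε3 : 0 < ε / 3 := by positivity
  obtain ⟨f, hf⟩ := exists_vec_gt hE T c hε3
  obtain ⟨g, hg⟩ := exists_vec_gt hE T₁ d hε3
  set Hp : Test Extra := ⟨hp α θ T f.1 g.1, isT_hp hE hT f.2 g.2 hα hα1 hθ hθ1 hαθ⟩ with hHp
  set Hm : Test Extra :=
    ⟨hp α θ T f.1 (-g.1), isT_hp hE hT f.2 (isT_neg hE g.2) hα hα1 hθ hθ1 hαθ⟩ with hHm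
  have h1 : evalT Extra Hp (vec Extra T c + vec Extra T₁ d) ≤ ‖vec Extra T c + vec Extra T₁ d‖ :=
    evalT_le_norm _ _
  have h2 : evalT Extra Hm (vec Extra T c - vec Extra T₁ d) ≤ ‖vec Extra T c - vec Extra T₁ d‖ :=
    evalT_le_norm _ _
  rw [map_add] at h1
  rw [map_sub] at h2
  have e1 : evalT Extra Hp (vec Extra T c) = α * evalT Extra f (vec Extra T c) := by
    rw [evalT_vec, evalT_vec, Finset.mul_sum]
    refine Finset.sum_congr rfl fun s hs => ?_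
    show c s * hp α θ T f.1 g.1 s = α * (c s * f.1 s)
    rw [hp_of_mem hT f.1 g.1 hs]; ring
  have e2 : evalT Extra Hm (vec Extra T c) = α * evalT Extra f (vec Extra T c) := by
    rw [evalT_vec, evalT_vec, Finset.mul_sum]
    refine Finset.sum_congr rfl fun s hs => ?_
    show c s * hp α θ T f.1 (-g.1) s = α * (c s * f.1 s)
    rw [hp_of_mem hT f.1 (-g.1) hs]; ring
  have e3 : evalT Extra Hp (vec Extra T₁ d) - evalT Extra Hm (vec Extra T₁ d)
      = θ * evalT Extra g (vec Extra T₁ d) := by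
    rw [evalT_vec, evalT_vec, evalT_vec, Finset.mul_sum, ← Finset.sum_sub_distrib]
    refine Finset.sum_congr rfl fun s _ => ?_
    show d s * hp α θ T f.1 g.1 s - d s * hp α θ T f.1 (-g.1) s = θ * (d s * g.1 s)
    by_cases hsT : s ∈ T
    · rw [hd s hsT]; ring
    · have := hp_sub_hp_neg (α := α) (θ := θ) hT f.1 g.1 hsT
      rw [← mul_sub, this]; ring
  have h3 : 2 * α * (‖vec Extra T c‖ - ε / 3) ≤ 2 * α * evalT Extra f (vec Extra T c) :=
    mul_le_mul_of_nonneg_left hf.le (by linarith)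
  have h4 : θ * (‖vec Extra T₁ d‖ - ε / 3) ≤ θ * evalT Extra g (vec Extra T₁ d) :=
    mul_le_mul_of_nonneg_left hg.le hθ
  nlinarith

/-! ### Density -/

/-- The closure of a finite vertex set under taking suffixes (ancestors). -/
def sufClosure (A : Finset (List ℕ)) : Finset (List ℕ) := A.biUnion fun s => s.tails.toFinset

theorem subset_sufClosure (A : Finset (List ℕ)) : A ⊆ sufClosure A := by
  intro s hs
  unfold sufClosure
  rw [Finset.mem_biUnion]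
  exact ⟨s, hs, by simp⟩

theorem sufClosure_closed (A : Finset (List ℕ)) :
    ∀ s ∈ sufClosure A, ∀ u, u <:+ s → u ∈ sufClosure A := by
  intro s hs u hu
  unfold sufClosure at hs ⊢
  rw [Finset.mem_biUnion] at hs ⊢
  obtain ⟨a, ha, hsa⟩ := hs
  refine ⟨a, ha, ?_⟩
  rw [List.mem_toFinset, List.mem_tails] at hsa ⊢
  exact hu.trans hsa

/-- (A2) Finitely supported vectors on ancestor-closed sets are dense. -/
theorem dense (x : space Extra) {ε : ℝ} (hε : 0 < ε) :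
    ∃ (T₀ : Finset (List ℕ)) (c : List ℕ → ℝ),
      (∀ s ∈ T₀, ∀ u, u <:+ s → u ∈ T₀) ∧ ‖x - vec Extra T₀ c‖ < ε := by
  have hx : (x : lp (fun _ : Test Extra => ℝ) ⊤) ∈
      closure ((Submodule.span ℝ (Set.range (coordVec Extra)) :
        Set (lp (fun _ : Test Extra => ℝ) ⊤))) := by
    have := x.2
    change (x : lp (fun _ : Test Extra => ℝ) ⊤) ∈
      (Submodule.span ℝ (Set.range (coordVec Extra))).topologicalClosure at this
    rwa [← SetLike.mem_coe, Submodule.topologicalClosure_coe] at this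
  obtain ⟨b, hb, hdist⟩ := Metric.mem_closure_iff.1 hx ε hε
  obtain ⟨c, hc⟩ := Finsupp.mem_span_range_iff_exists_finsupp.1 hb
  refine ⟨sufClosure c.support, ⇑c, sufClosure_closed _, ?_⟩
  have hvec : ((vec Extra (sufClosure c.support) ⇑c : space Extra) :
      lp (fun _ : Test Extra => ℝ) ⊤) = b := by
    rw [← hc]
    unfold vec
    rw [Submodule.coe_sum, Finsupp.sum]
    symm
    refine Finset.sum_subset (subset_sufClosure _) ?_
    intro s _ hs
    rw [Finsupp.notMem_support_iff.1 hs, zero_smul]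
  rw [dist_eq_norm] at hdist
  rw [Submodule.coe_norm, Submodule.coe_sub, hvec]
  exact hdist

/-! ### Approximation off an ancestor-closed set -/

theorem near_off (hE : PotClass Extra) (T : Finset (List ℕ)) (y : space Extra)
    (hy : ∀ s ∈ T, ∀ hs : IsT Extra (Pi.single s 1), evalT Extra ⟨Pi.single s 1, hs⟩ y = 0)
    {ε : ℝ} (hε : 0 < ε) :
    ∃ (T₁ : Finset (List ℕ)) (d : List ℕ → ℝ), (∀ s ∈ T, d s = 0) ∧ ‖y - vec Extra T₁ d‖ < ε := by
  classical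
  have hpos : (0 : ℝ) < 1 + 2 * T.card := by positivity
  obtain ⟨T₁, d', -, hd'⟩ := dense y (div_pos hε hpos)
  refine ⟨T₁, fun s => if s ∈ T then 0 else d' s, fun s hs => by simp [hs], ?_⟩
  set d : List ℕ → ℝ := fun s => if s ∈ T then 0 else d' s with hd
  have hdiff : vec Extra T₁ d' - vec Extra T₁ d = ∑ s ∈ T₁.filter (· ∈ T), d' s • e Extra s := by
    unfold vec
    rw [← Finset.sum_sub_distrib, Finset.sum_filter]
    refine Finset.sum_congr rfl fun s _ => ?_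
    by_cases hs : s ∈ T
    · simp [hd, hs]
    · simp [hd, hs]
  have hterm : ∀ s ∈ T₁.filter (· ∈ T), ‖d' s • e Extra s‖ ≤ 2 * ‖y - vec Extra T₁ d'‖ := by
    intro s hs
    rw [Finset.mem_filter] at hs
    rcases hE.live_or_dead s with hlive | hdead
    · have hsT := isT_single hlive
      have h1 : d' s = -(evalT Extra ⟨Pi.single s 1, hsT⟩ (y - vec Extra T₁ d')) := by
        rw [map_sub, hy s hs.2 hsT, evalT_single_vec hsT, if_pos hs.1]; ring
      rw [norm_smul, Real.norm_eq_abs, h1, abs_neg, mul_comm]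
      exact mul_le_mul (norm_e_le s) (abs_evalT_le' _ _) (abs_nonneg _) (by norm_num)
    · rw [norm_smul, e_eq_zero_of_dead hdead, norm_zero, mul_zero]
      positivity
  have hT : ‖vec Extra T₁ d' - vec Extra T₁ d‖ ≤ T.card * (2 * ‖y - vec Extra T₁ d'‖) := by
    rw [hdiff]
    refine (norm_sum_le _ _).trans ?_
    refine (Finset.sum_le_sum hterm).trans ?_
    rw [Finset.sum_const, nsmul_eq_mul]
    refine mul_le_mul_of_nonneg_right ?_ (by positivity)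
    have hsub : T₁.filter (· ∈ T) ⊆ T := fun s hs => (Finset.mem_filter.1 hs).2
    exact_mod_cast Finset.card_le_card hsub
  have e : y - vec Extra T₁ d = (y - vec Extra T₁ d') + (vec Extra T₁ d' - vec Extra T₁ d) := by
    abel
  rw [e]
  calc ‖y - vec Extra T₁ d' + (vec Extra T₁ d' - vec Extra T₁ d)‖
      ≤ ‖y - vec Extra T₁ d'‖ + ‖vec Extra T₁ d' - vec Extra T₁ d‖ := norm_add_le _ _
    _ ≤ ‖y - vec Extra T₁ d'‖ + T.card * (2 * ‖y - vec Extra T₁ d'‖) := by linarith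
    _ = (1 + 2 * T.card) * ‖y - vec Extra T₁ d'‖ := by ring
    _ < (1 + 2 * T.card) * (ε / (1 + 2 * T.card)) := mul_lt_mul_of_pos_left hd' hpos
    _ = ε := by field_simp

/-! ### The block inequality -/

/-- The parameters of the splitting: for `3 υ² < 4 ξ²` there are `α, θ ∈ [0, 1]` with
`α² + θ² (1 + α)² / 4 ≤ 1` and `sqrt (4 ξ² + υ²) ≤ 2 α ξ + θ υ`. -/
theorem params {ξ υ : ℝ} (hξpos : 0 < ξ) (hυpos : 0 < υ) (hcase : 3 * υ ^ 2 < 4 * ξ ^ 2) :
    ∃ α θ : ℝ, 0 ≤ α ∧ α ≤ 1 ∧ 0 ≤ θ ∧ θ ≤ 1 ∧ α ^ 2 + θ ^ 2 * (1 + α) ^ 2 / 4 ≤ 1 ∧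
      Real.sqrt (4 * ξ ^ 2 + υ ^ 2) ≤ 2 * α * ξ + θ * υ := by
  set R := Real.sqrt (4 * ξ ^ 2 + υ ^ 2) with hR
  have hR2 : R ^ 2 = 4 * ξ ^ 2 + υ ^ 2 := Real.sq_sqrt (by positivity)
  have hRpos : 0 < R := Real.sqrt_pos.2 (by positivity)
  have hR2ξ : 2 * ξ ≤ R := by
    rw [hR]
    calc 2 * ξ = Real.sqrt ((2 * ξ) ^ 2) := (Real.sqrt_sq (by positivity)).symm
      _ ≤ Real.sqrt (4 * ξ ^ 2 + υ ^ 2) := Real.sqrt_le_sqrt (by nlinarith)
  have h38 : 3 * υ ≤ 8 * ξ := by nlinarith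
  have hRle : 2 * R ≤ υ + 4 * ξ := by
    have : R ≤ (υ + 4 * ξ) / 2 := by
      rw [hR]
      calc Real.sqrt (4 * ξ ^ 2 + υ ^ 2) ≤ Real.sqrt (((υ + 4 * ξ) / 2) ^ 2) :=
            Real.sqrt_le_sqrt (by nlinarith)
        _ = (υ + 4 * ξ) / 2 := Real.sqrt_sq (by positivity)
    linarith
  have hα : 0 ≤ 2 * ξ / R := by positivity
  have hα1 : 2 * ξ / R ≤ 1 := by rw [div_le_one hRpos]; exact hR2ξ
  have hθ : 0 ≤ 2 * (R - 2 * ξ) / υ := div_nonneg (by linarith) hυpos.le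
  have hθ1 : 2 * (R - 2 * ξ) / υ ≤ 1 := by rw [div_le_one hυpos]; linarith
  have hαR : 2 * ξ / R * R = 2 * ξ := by field_simp
  have hθυ : 2 * (R - 2 * ξ) / υ * υ = 2 * (R - 2 * ξ) := by field_simp
  refine ⟨2 * ξ / R, 2 * (R - 2 * ξ) / υ, hα, hα1, hθ, hθ1, ?_, ?_⟩
  · generalize 2 * ξ / R = α at hαR
    generalize 2 * (R - 2 * ξ) / υ = θ at hθυ
    have h1 : (θ * υ) ^ 2 * (R + α * R) ^ 2 = 4 * (R ^ 2 - 4 * ξ ^ 2) ^ 2 := by
      rw [hαR, hθυ]; ring
    have h2 : (α ^ 2 + θ ^ 2 * (1 + α) ^ 2 / 4) * (υ ^ 2 * R ^ 2) = 1 * (υ ^ 2 * R ^ 2) := by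
      have : (α ^ 2 + θ ^ 2 * (1 + α) ^ 2 / 4) * (υ ^ 2 * R ^ 2)
          = υ ^ 2 * (α * R) ^ 2 + (θ * υ) ^ 2 * (R + α * R) ^ 2 / 4 := by ring
      rw [this, h1, hαR, hR2]; ring
    have hpos : 0 < υ ^ 2 * R ^ 2 := by positivity
    exact le_of_eq (mul_right_cancel₀ hpos.ne' h2)
  · generalize 2 * ξ / R = α at hαR
    generalize 2 * (R - 2 * ξ) / υ = θ at hθυ
    have h0 : 2 * α * ξ * R = 4 * ξ ^ 2 := by
      calc 2 * α * ξ * R = 2 * ξ * (α * R) := by ring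
        _ = 4 * ξ ^ 2 := by rw [hαR]; ring
    have h3 : (2 * α * ξ + θ * υ - R) * R = (2 * ξ - R) ^ 2 := by
      rw [hθυ]
      calc (2 * α * ξ + 2 * (R - 2 * ξ) - R) * R
          = 2 * α * ξ * R + (R - 4 * ξ) * R := by ring
        _ = (2 * ξ - R) ^ 2 := by rw [h0]; ring
    have h4 : 0 ≤ (2 * α * ξ + θ * υ - R) * R := by rw [h3]; positivity
    have := nonneg_of_mul_nonneg_left h4 hRpos
    linarith

theorem norm_le_add_sub (a b : space Extra) : ‖a‖ ≤ ‖b‖ + ‖a - b‖ := by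
  have e : a = b + (a - b) := by abel
  calc ‖a‖ = ‖b + (a - b)‖ := by rw [← e]
    _ ≤ _ := norm_add_le _ _

theorem norm_add_le_of_near (a y z : space Extra) : ‖a + z‖ ≤ ‖a + y‖ + ‖y - z‖ := by
  have e : a + z = (a + y) - (y - z) := by abel
  rw [e]
  exact norm_sub_le _ _

theorem norm_sub_le_of_near (a y z : space Extra) : ‖a - z‖ ≤ ‖a - y‖ + ‖y - z‖ := by
  have e : a - z = (a - y) + (y - z) := by abel
  rw [e]
  exact norm_add_le _ _

theorem two_norm_le (a y : space Extra) : 2 * ‖y‖ ≤ ‖a + y‖ + ‖a - y‖ := by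
  have e : (a + y) - (a - y) = (2 : ℝ) • y := by
    rw [two_smul]; abel
  calc 2 * ‖y‖ = ‖(2 : ℝ) • y‖ := by rw [norm_smul]; simp
    _ = ‖(a + y) - (a - y)‖ := by rw [e]
    _ ≤ ‖a + y‖ + ‖a - y‖ := norm_sub_le _ _

/-- The block inequality in the splitting regime. -/
theorem block_ineq_aux (hE : PotClass Extra) (T₀ : Finset (List ℕ)) (hT : AncClosed T₀)
    (c : List ℕ → ℝ) (y : space Extra)
    (hy : ∀ s ∈ T₀, ∀ hs : IsT Extra (Pi.single s 1), evalT Extra ⟨Pi.single s 1, hs⟩ y = 0)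
    {α θ : ℝ} (hα : 0 ≤ α) (hα1 : α ≤ 1) (hθ : 0 ≤ θ) (hθ1 : θ ≤ 1)
    (hαθ : α ^ 2 + θ ^ 2 * (1 + α) ^ 2 / 4 ≤ 1) :
    2 * α * ‖vec Extra T₀ c‖ + θ * ‖y‖ ≤ ‖vec Extra T₀ c + y‖ + ‖vec Extra T₀ c - y‖ := by
  refine le_of_forall_pos_le_add fun ε hε => ?_
  have hε3 : 0 < ε / 3 := by positivity
  obtain ⟨T₁, d, hd, hyd⟩ := near_off hE T₀ y hy hε3
  have hs := split_fin hE hT T₁ c d hd hα hα1 hθ hθ1 hαθ
  have hdn := norm_le_add_sub y (vec Extra T₁ d)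
  have hp1 := norm_add_le_of_near (vec Extra T₀ c) y (vec Extra T₁ d)
  have hp2 := norm_sub_le_of_near (vec Extra T₀ c) y (vec Extra T₁ d)
  have h5 : θ * ‖y‖ ≤ θ * (‖vec Extra T₁ d‖ + ε / 3) :=
    mul_le_mul_of_nonneg_left (by linarith) hθ
  have h6 : θ * (ε / 3) ≤ 1 * (ε / 3) := mul_le_mul_of_nonneg_right hθ1 hε3.le
  linarith

/-- (A1) The block inequality. -/
theorem block_ineq (hE : PotClass Extra) (T₀ : Finset (List ℕ))
    (hT₀ : ∀ s ∈ T₀, ∀ u, u <:+ s → u ∈ T₀) (c : List ℕ → ℝ) (y : space Extra)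
    (hy : ∀ s ∈ T₀, ∀ hs : IsT Extra (Pi.single s 1), evalT Extra ⟨Pi.single s 1, hs⟩ y = 0) :
    Real.sqrt (4 * ‖vec Extra T₀ c‖ ^ 2 + ‖y‖ ^ 2)
      ≤ ‖vec Extra T₀ c + y‖ + ‖vec Extra T₀ c - y‖ := by
  have htri := two_norm_le (vec Extra T₀ c) y
  have haux := fun hT => @block_ineq_aux Extra hE T₀ hT c y hy
  have hsub0 : ‖vec Extra T₀ c - 0‖ = ‖vec Extra T₀ c‖ := by rw [sub_zero]
  have hadd0 : ‖vec Extra T₀ c + 0‖ = ‖vec Extra T₀ c‖ := by rw [add_zero]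
  have hy0 : ‖y‖ = 0 → y = 0 := fun h => norm_eq_zero.1 h
  have hempty : T₀ = ∅ → ‖vec Extra T₀ c‖ = 0 := by
    intro h
    rw [h]
    simp [vec]
  generalize ‖vec Extra T₀ c + y‖ + ‖vec Extra T₀ c - y‖ = S at htri haux ⊢
  have hξ0 : 0 ≤ ‖vec Extra T₀ c‖ := norm_nonneg _
  have hυ0 : 0 ≤ ‖y‖ := norm_nonneg _
  generalize ‖vec Extra T₀ c‖ = ξ at haux hempty hξ0 ⊢
  generalize ‖y‖ = υ at htri haux hυ0 ⊢
  by_cases hcase : 4 * ξ ^ 2 ≤ 3 * υ ^ 2
  · calc Real.sqrt (4 * ξ ^ 2 + υ ^ 2) ≤ Real.sqrt ((2 * υ) ^ 2) :=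
          Real.sqrt_le_sqrt (by nlinarith)
      _ = 2 * υ := Real.sqrt_sq (by positivity)
      _ ≤ _ := htri
  · rw [not_le] at hcase
    have hξpos : 0 < ξ := by
      by_contra h
      have : ξ = 0 := le_antisymm (not_lt.1 h) hξ0
      rw [this] at hcase
      nlinarith [sq_nonneg υ]
    have hne : T₀.Nonempty := by
      by_contra h
      rw [Finset.not_nonempty_iff_eq_empty] at h
      have := hempty h
      linarith
    have hT : AncClosed T₀ := by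
      obtain ⟨s, hs⟩ := hne
      exact ⟨hT₀ s hs [] List.nil_suffix, fun a v hav => hT₀ _ hav v (List.suffix_cons a v)⟩
    by_cases hυz : υ = 0
    · have h := haux hT (α := 1) (θ := 0) zero_le_one le_rfl le_rfl zero_le_one (by norm_num)
      rw [hυz]
      have : Real.sqrt (4 * ξ ^ 2 + 0 ^ 2) = 2 * ξ := by
        rw [show 4 * ξ ^ 2 + (0 : ℝ) ^ 2 = (2 * ξ) ^ 2 by ring]
        exact Real.sqrt_sq (by positivity)
      rw [this]; linarith
    · have hυpos : 0 < υ := lt_of_le_of_ne hυ0 (Ne.symm hυz)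
      obtain ⟨α, θ, hα, hα1, hθ, hθ1, hαθ, hmain⟩ := params hξpos hυpos hcase
      exact hmain.trans (haux hT hα hα1 hθ hθ1 hαθ)

/-! ### The midpoint modulus -/

theorem sqrt_scale {ε ξ t : ℝ} (hε : 0 < ε) (hξ : 1 - ε ≤ ξ) :
    (1 - ε) * Real.sqrt (4 + t ^ 2) ≤ Real.sqrt (4 * ξ ^ 2 + t ^ 2) := by
  rcases le_total (1 - ε) 0 with h | h
  · exact (mul_nonpos_of_nonpos_of_nonneg h (Real.sqrt_nonneg _)).trans (Real.sqrt_nonneg _)
  · have h1 : (1 - ε) * Real.sqrt (4 + t ^ 2) = Real.sqrt ((1 - ε) ^ 2 * (4 + t ^ 2)) := by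
      rw [Real.sqrt_mul (sq_nonneg _), Real.sqrt_sq h]
    rw [h1]
    refine Real.sqrt_le_sqrt ?_
    have h2 : (1 - ε) ^ 2 ≤ ξ ^ 2 := pow_le_pow_left₀ h hξ 2
    have h3 : (1 - ε) ^ 2 ≤ 1 := by nlinarith
    nlinarith [sq_nonneg t]

/-- (A3) Lower bound for the averaged midpoint modulus, for every `t > 0`. -/
theorem midpoint_ge (hE : PotClass Extra) {t : ℝ} (ht : 0 < t) (x : space Extra) (hx : ‖x‖ = 1)
    {η : ℝ} (hη : 0 < η) :
    ∃ F : Set (space Extra), AUC.IsCof F ∧ ∀ y ∈ F, ‖y‖ = 1 →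
      Real.sqrt (1 + t ^ 2 / 4) - 1 - η ≤ (‖x + t • y‖ + ‖x - t • y‖) / 2 - 1 := by
  set s := Real.sqrt (4 + t ^ 2) with hs
  have hs0 : 0 ≤ s := Real.sqrt_nonneg _
  have hs2 : s ^ 2 = 4 + t ^ 2 := Real.sq_sqrt (by positivity)
  have hhalf : Real.sqrt (1 + t ^ 2 / 4) = s / 2 := by
    have : 1 + t ^ 2 / 4 = (s / 2) ^ 2 := by rw [div_pow, hs2]; ring
    rw [this, Real.sqrt_sq (by positivity)]
  set ε := 2 * η / (s + 2) with hε
  have hεpos : 0 < ε := by positivity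
  have hεs : ε * (s + 2) = 2 * η := by rw [hε]; field_simp
  obtain ⟨T₀, c, hT₀, hxc⟩ := dense x hεpos
  let ι := {p : {s : List ℕ // s ∈ T₀} // IsT Extra (Pi.single p.1 1)}
  refine ⟨{y | ∀ i : ι, evalT Extra ⟨Pi.single i.1.1 1, i.2⟩ y = 0},
    AUC.isCof_iInter_ker (fun i : ι => evalT Extra ⟨Pi.single i.1.1 1, i.2⟩), ?_⟩
  intro y hyF hy1
  have hy' : ∀ u ∈ T₀, ∀ hu : IsT Extra (Pi.single u 1),
      evalT Extra ⟨Pi.single u 1, hu⟩ (t • y) = 0 := by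
    intro u hu hu'
    rw [map_smul, hyF ⟨⟨u, hu⟩, hu'⟩, smul_zero]
  have hb := block_ineq hE T₀ hT₀ c (t • y) hy'
  have hty : ‖t • y‖ = t := by rw [norm_smul, hy1, mul_one, Real.norm_eq_abs, abs_of_pos ht]
  rw [hty] at hb
  have hξ : 1 - ε ≤ ‖vec Extra T₀ c‖ := by
    have : ‖x‖ ≤ ‖vec Extra T₀ c‖ + ‖x - vec Extra T₀ c‖ := by
      have e : x = vec Extra T₀ c + (x - vec Extra T₀ c) := by abel
      calc ‖x‖ = ‖vec Extra T₀ c + (x - vec Extra T₀ c)‖ := by rw [← e]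
        _ ≤ _ := norm_add_le _ _
    linarith
  have h1 := sqrt_scale (t := t) hεpos hξ
  have hp1 : ‖vec Extra T₀ c + t • y‖ ≤ ‖x + t • y‖ + ε := by
    have e : vec Extra T₀ c + t • y = (x + t • y) - (x - vec Extra T₀ c) := by abel
    rw [e]
    exact (norm_sub_le _ _).trans (by linarith)
  have hp2 : ‖vec Extra T₀ c - t • y‖ ≤ ‖x - t • y‖ + ε := by
    have e : vec Extra T₀ c - t • y = (x - t • y) - (x - vec Extra T₀ c) := by abel
    rw [e]
    exact (norm_sub_le _ _).trans (by linarith)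
  rw [hhalf]
  nlinarith

end Crest.Agent.Helper19.TA
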